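import Vale.Agent.P296.Poly

/-!
Čech computation: sections of `Sym^k G (e, d)` over the two halves of `ℙ¹ × ℙ¹`.
-/

namespace Vale.Agent.P296

open LaurentPolynomial (T)

/-- Laurent polynomials in `μ`. -/
abbrev RR : Type := LaurentPolynomial ℂ
/-- Polynomials in `λ` over `RR`. -/
abbrev BB : Type := Polynomial RR
/-- Polynomials in the fibre coordinates. -/
abbrev AA : Type := MvPolynomial (Fin 2) BB

/-- The monomial `λ^i μ^j`. -/
noncomputable def mon (i : ℕ) (j : ℤ) : BB := Polynomial.X ^ i * Polynomial.C (T j)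

theorem mon_mul (i i' : ℕ) (j j' : ℤ) : mon i j * mon i' j' = mon (i + i') (j + j') := by
  simp only [mon, LaurentPolynomial.T_add, map_mul, pow_add]
  ring

/-- Span of monomials with bounded `λ`-degree. -/
noncomputable def W (e : ℕ) (P : ℤ → Prop) : Submodule ℂ BB :=
  Submodule.span ℂ {φ | ∃ i j, i ≤ e ∧ P j ∧ φ = mon i j}

theorem mon_mem {e i : ℕ} {P : ℤ → Prop} {j : ℤ} (hi : i ≤ e) (hj : P j) : mon i j ∈ W e P :=
  Submodule.subset_span ⟨i, j, hi, hj, rfl⟩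

theorem W_mono {e e' : ℕ} {P P' : ℤ → Prop} (he : e ≤ e') (hP : ∀ j, P j → P' j) {φ : BB}
    (h : φ ∈ W e P) : φ ∈ W e' P' := by
  refine Submodule.span_mono ?_ h
  rintro _ ⟨i, j, hi, hj, rfl⟩
  exact ⟨i, j, hi.trans he, hP j hj, rfl⟩

theorem W_mul {e e' : ℕ} {P P' P'' : ℤ → Prop} (hP : ∀ j j', P j → P' j' → P'' (j + j'))
    {φ ψ : BB} (h : φ ∈ W e P) (h' : ψ ∈ W e' P') : φ * ψ ∈ W (e + e') P'' := by
  induction h using Submodule.span_induction with
  | mem φ hφ =>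
    obtain ⟨i, j, hi, hj, rfl⟩ := hφ
    induction h' using Submodule.span_induction with
    | mem ψ hψ =>
      obtain ⟨i', j', hi', hj', rfl⟩ := hψ
      rw [mon_mul]
      exact mon_mem (by omega) (hP _ _ hj hj')
    | zero => simp
    | add a b _ _ ha hb => rw [mul_add]; exact Submodule.add_mem _ ha hb
    | smul c a _ ha => rw [mul_smul_comm]; exact Submodule.smul_mem _ _ ha
  | zero => simp
  | add a b _ _ ha hb => rw [add_mul]; exact Submodule.add_mem _ ha hb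
  | smul c a _ ha => rw [smul_mul_assoc]; exact Submodule.smul_mem _ _ ha

/-- The unconstrained shape. -/
def PT : ℤ → ℤ → Prop := fun _ _ => True
/-- Regular at `μ = 0`. -/
def P0 : ℤ → ℤ → Prop := fun _ j => 0 ≤ j
/-- Regular at `μ = ∞`. -/
def P1' : ℤ → ℤ → Prop := fun d j => j ≤ d

/-- Additive shapes. -/
def AddSh (P : ℤ → ℤ → Prop) : Prop := ∀ d d' j j', P d j → P d' j' → P (d + d') (j + j')

theorem addSh_PT : AddSh PT := fun _ _ _ _ _ _ => trivial
theorem addSh_P0 : AddSh P0 := fun _ _ _ _ h h' => add_nonneg h h'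
theorem addSh_P1 : AddSh P1' := fun _ _ _ _ h h' => add_le_add h h'

theorem W_split {e : ℕ} {φ : BB} (h : φ ∈ W e (PT 0)) :
    ∃ φ0 ∈ W e (P0 0), ∃ φ1 ∈ W e (P1' (-1)), φ = φ0 + φ1 := by
  induction h using Submodule.span_induction with
  | mem φ hφ =>
    obtain ⟨i, j, hi, -, rfl⟩ := hφ
    by_cases hj : 0 ≤ j
    · exact ⟨_, mon_mem hi hj, 0, Submodule.zero_mem _, by simp⟩
    · exact ⟨0, Submodule.zero_mem _, _, mon_mem hi (show j ≤ -1 by omega), by simp⟩
  | zero => exact ⟨0, Submodule.zero_mem _, 0, Submodule.zero_mem _, by simp⟩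
  | add a b _ _ ha hb =>
    obtain ⟨a0, h0, a1, h1, rfl⟩ := ha
    obtain ⟨b0, k0, b1, k1, rfl⟩ := hb
    exact ⟨a0 + b0, Submodule.add_mem _ h0 k0, a1 + b1, Submodule.add_mem _ h1 k1, by ring⟩
  | smul c a _ ha =>
    obtain ⟨a0, h0, a1, h1, rfl⟩ := ha
    exact ⟨c • a0, Submodule.smul_mem _ _ h0, c • a1, Submodule.smul_mem _ _ h1, by simp⟩

theorem natDegree_le_of_W {e : ℕ} {P : ℤ → Prop} {φ : BB} (h : φ ∈ W e P) : φ.natDegree ≤ e := by
  induction h using Submodule.span_induction with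
  | mem φ hφ =>
    obtain ⟨i, j, hi, -, rfl⟩ := hφ
    refine (Polynomial.natDegree_mul_C_le _ _).trans ?_
    exact (Polynomial.natDegree_X_pow_le i).trans hi
  | zero => simp
  | add a b _ _ ha hb => exact (Polynomial.natDegree_add_le _ _).trans (max_le ha hb)
  | smul c a _ ha => exact (Polynomial.natDegree_smul_le _ _).trans ha

theorem W_of_natDegree {e : ℕ} {φ : BB} (h : φ.natDegree ≤ e) : φ ∈ W e (PT 0) := by
  rw [φ.as_sum_range_C_mul_X_pow]
  refine Submodule.sum_mem _ fun i hi => ?_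
  have hi' : i ≤ e := by have := Finset.mem_range.mp hi; omega
  generalize φ.coeff i = r
  induction r using LaurentPolynomial.induction_on' with
  | add p q hp hq => rw [map_add, add_mul]; exact Submodule.add_mem _ hp hq
  | C_mul_T n a =>
    have : Polynomial.C (LaurentPolynomial.C a * T n) * Polynomial.X ^ i = a • mon i n := by
      rw [mon, Algebra.smul_def, map_mul, Polynomial.algebraMap_apply,
        LaurentPolynomial.algebraMap_apply]
      simp only [Algebra.algebraMap_self, RingHom.id_apply]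
      ring
    rw [this]
    exact Submodule.smul_mem _ _ (mon_mem hi' trivial)

/-- The variable `λ`. -/
noncomputable def lam : BB := Polynomial.X
/-- The variable `μ`. -/
noncomputable def mu : BB := Polynomial.C (T 1)

theorem lam_mu_pow (i j : ℕ) : lam ^ i * mu ^ j = mon i j := by
  rw [lam, mu, mon, ← map_pow, LaurentPolynomial.T_pow, mul_one]

theorem bi_mem (p q : ℕ) (c : ℕ → ℕ → ℤ) :
    bi p q c 1 lam 1 mu ∈ W p (fun j => 0 ≤ j ∧ j ≤ q) := by
  refine Submodule.sum_mem _ fun i hi => Submodule.sum_mem _ fun j hj => ?_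
  have := Finset.mem_range.mp hi
  have := Finset.mem_range.mp hj
  rw [one_pow, one_pow, one_mul, one_mul, mul_assoc, lam_mu_pow, ← zsmul_eq_mul]
  exact zsmul_mem (mon_mem (by omega) ⟨by omega, by omega⟩) _

theorem bi_mem' (p q : ℕ) (c : ℕ → ℕ → ℤ) :
    bi p q c 1 mu 1 lam ∈ W q (fun j => 0 ≤ j ∧ j ≤ p) := by
  refine Submodule.sum_mem _ fun i hi => Submodule.sum_mem _ fun j hj => ?_
  have := Finset.mem_range.mp hi
  have := Finset.mem_range.mp hj
  rw [one_pow, one_pow, one_mul, one_mul, mul_assoc, mul_comm (mu ^ i), lam_mu_pow,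
    ← zsmul_eq_mul]
  exact zsmul_mem (mon_mem (by omega) ⟨by omega, by omega⟩) _

/-- The equation of the curve `Z`. -/
noncomputable def ze : BB := bi 3 3 cZ 1 lam 1 mu
/-- The gluing function near `μ = 0`. -/
noncomputable def th0 : BB := bi 6 2 cS0 1 lam 1 mu
/-- The gluing function near `μ = ∞`. -/
noncomputable def th1 : BB := bi 6 2 cS1 1 lam 1 mu * mon 0 (-8)
/-- The extension cocycle. -/
noncomputable def ka : BB := bi 3 7 cK 1 lam 1 mu * mon 0 (-8)

theorem mu8 : mu ^ 8 * mon 0 (-8) = 1 := by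
  have := lam_mu_pow 0 8
  rw [pow_zero, one_mul] at this
  rw [this, mon_mul]
  simp [mon]

theorem th0_sub : th0 - ka * ze = th1 := by
  have := idK (1 : BB) lam 1 mu
  rw [th0, ka, ze, th1]
  linear_combination mon 0 (-8) * this - bi 6 2 cS0 1 lam 1 mu * mu8

theorem ze_mem0 : ze ∈ W 3 (P0 3) := W_mono le_rfl (fun _ h => h.1) (bi_mem _ _ _)
theorem ze_mem1 : ze ∈ W 3 (P1' 3) := W_mono le_rfl (fun _ h => h.2) (bi_mem _ _ _)
theorem th0_mem : th0 ∈ W 6 (P0 (-6)) := W_mono le_rfl (fun _ h => h.1) (bi_mem _ _ _)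
theorem th1_mem : th1 ∈ W 6 (P1' (-6)) :=
  W_mul (e' := 0) (P' := fun j => j = -8) (fun j j' h h' => by
    simp only [P1'] at *; push_cast at h; omega) (bi_mem _ _ _) (mon_mem le_rfl rfl)
theorem ka_mem : ka ∈ W 3 (PT 0) :=
  W_mul (e' := 0) (P' := fun j => j = -8) (fun _ _ _ _ => trivial) (bi_mem _ _ _)
    (mon_mem le_rfl rfl)

theorem natDegree_ze : ze.natDegree = 3 := by
  refine le_antisymm (natDegree_le_of_W ze_mem0) ?_
  let f : RR →+* ℂ := LaurentPolynomial.eval₂ (RingHom.id ℂ) 1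
  refine le_trans ?_ (Polynomial.natDegree_map_le (f := f))
  have : ze.map f = bi 3 3 cZ 1 Polynomial.X 1 1 := by
    have := map_bi (Polynomial.mapRingHom f) 3 3 cZ 1 lam 1 mu
    simpa [lam, mu, f, ze] using this
  rw [this, zeta_one]
  refine Polynomial.le_natDegree_of_ne_zero ?_
  have h1 : (-250 : Polynomial ℂ) = Polynomial.C (-250) := by simp; rfl
  have h2 : (125 : Polynomial ℂ) = Polynomial.C 125 := rfl
  have h3 : (500 : Polynomial ℂ) = Polynomial.C 500 := rfl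
  have h4 : (375 : Polynomial ℂ) = Polynomial.C 375 := rfl
  rw [h1, h2, h3, h4]
  simp only [Polynomial.coeff_sub, Polynomial.coeff_add, Polynomial.coeff_C_mul,
    Polynomial.coeff_X_pow, Polynomial.coeff_X, Polynomial.coeff_C]
  norm_num

theorem ze_ne : ze ≠ 0 := fun h => by
  have := natDegree_ze
  rw [h] at this
  simp at this

theorem nn_ne : ((nn : ℤ) : ℂ) ≠ 0 := by simp [nn]

theorem smul_nn (x : BB) : ((nn : ℂ) ^ 2)⁻¹ • ((nn : BB) ^ 2 * x) = x := by
  have : (nn : BB) ^ 2 * x = ((nn : ℂ) ^ 2) • x := by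
    rw [Algebra.smul_def]; simp
  rw [this, smul_smul, inv_mul_cancel₀ (pow_ne_zero _ nn_ne), one_smul]

/-- Bezout data for a gluing function. -/
def Bez (P : ℤ → ℤ → Prop) (θ : BB) : Prop :=
  ∀ a : ℕ, a = 0 ∨ a = 8 → ∃ t ∈ W 2 (P 6), ∃ b ∈ W 5 (P (-3)), mon a 0 = θ * t + ze * b

theorem bez0 : Bez P0 th0 := by
  rintro a (rfl | rfl)
  · refine ⟨((nn : ℂ) ^ 2)⁻¹ • bi 6 2 cS0 1 mu 1 lam, Submodule.smul_mem _ _
      (W_mono le_rfl (fun _ h => h.1) (bi_mem' _ _ _)), ((nn : ℂ) ^ 2)⁻¹ • bi 5 5 cB00 1 lam 1 mu,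
      Submodule.smul_mem _ _ (W_mono le_rfl (fun _ h => h.1) (bi_mem _ _ _)), ?_⟩
    rw [mul_smul_comm, mul_smul_comm, ← smul_add, th0, ze, idB00, smul_nn]
    simp [mon]
  · refine ⟨((nn : ℂ) ^ 2)⁻¹ • bi 6 2 cS1 1 mu 1 lam, Submodule.smul_mem _ _
      (W_mono le_rfl (fun _ h => h.1) (bi_mem' _ _ _)), ((nn : ℂ) ^ 2)⁻¹ • bi 5 5 cB10 1 lam 1 mu,
      Submodule.smul_mem _ _ (W_mono le_rfl (fun _ h => h.1) (bi_mem _ _ _)), ?_⟩
    rw [mul_smul_comm, mul_smul_comm, ← smul_add, th0, ze, idB10, smul_nn]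
    simp [mon, lam]

theorem bez1 : Bez P1' th1 := by
  have hb : ∀ c, bi 5 5 c 1 lam 1 mu * mon 0 (-8) ∈ W 5 (P1' (-3)) := fun c =>
    W_mul (e' := 0) (P' := fun j => j = -8) (fun j j' h h' => by
      simp only [P1'] at *; push_cast at h; omega) (bi_mem _ _ _) (mon_mem le_rfl rfl)
  rintro a (rfl | rfl)
  · refine ⟨((nn : ℂ) ^ 2)⁻¹ • bi 6 2 cS0 1 mu 1 lam, Submodule.smul_mem _ _
      (W_mono le_rfl (fun _ h => h.2) (bi_mem' _ _ _)), ((nn : ℂ) ^ 2)⁻¹ •
      (bi 5 5 cB01 1 lam 1 mu * mon 0 (-8)), Submodule.smul_mem _ _ (hb _), ?_⟩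
    have : th1 * bi 6 2 cS0 1 mu 1 lam + ze * (bi 5 5 cB01 1 lam 1 mu * mon 0 (-8))
        = (nn : BB) ^ 2 * mon 0 0 := by
      have h := idB01 (1 : BB) lam 1 mu
      have h0 : mon 0 0 = 1 := by simp [mon]
      rw [th1, ze, h0]
      linear_combination mon 0 (-8) * h + (nn : BB) ^ 2 * mu8
    rw [mul_smul_comm, mul_smul_comm, ← smul_add, this, smul_nn]
  · refine ⟨((nn : ℂ) ^ 2)⁻¹ • bi 6 2 cS1 1 mu 1 lam, Submodule.smul_mem _ _
      (W_mono le_rfl (fun _ h => h.2) (bi_mem' _ _ _)), ((nn : ℂ) ^ 2)⁻¹ •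
      (bi 5 5 cB11 1 lam 1 mu * mon 0 (-8)), Submodule.smul_mem _ _ (hb _), ?_⟩
    have : th1 * bi 6 2 cS1 1 mu 1 lam + ze * (bi 5 5 cB11 1 lam 1 mu * mon 0 (-8))
        = (nn : BB) ^ 2 * mon 8 0 := by
      have h := idB11 (1 : BB) lam 1 mu
      have h0 : mon 8 0 = lam ^ 8 := by simp [mon, lam]
      rw [th1, ze, h0]
      linear_combination mon 0 (-8) * h + (nn : BB) ^ 2 * lam ^ 8 * mu8
    rw [mul_smul_comm, mul_smul_comm, ← smul_add, this, smul_nn]

end Vale.Agent.P296
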