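import Vale.Agent.P296.Bundle

/-!
The bundles `E m` are ample.
-/

namespace Vale.Agent.P296

open Matrix

theorem ample_of_family {r k : ℕ} {E : Bundle r} {ι : Type} [Fintype ι] (s : ι → Sec E k)
    (hk : 0 < k) (h1 : ∀ α p η, η ≠ 0 → ∃ n, (s n).σ α (p, η) ≠ 0)
    (h2 : ∀ α β p q η η' (c : ℂ), η ≠ 0 → η' ≠ 0 →
      (∀ n, (s n).σ β (q, η') = c * (s n).σ α (p, η)) →
      chart α p = chart β q ∧ ∃ t : ℂ, η' = t • (η ᵥ* E.g α β p))
    (h3 : ∀ α p η, η ≠ 0 → ∀ v, (∀ n, fderiv ℂ ((s n).σ α) (p, η) v = 0) → v = 0) : E.Ample := by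
  let e := Fintype.equivFin ι
  refine ⟨k, _, fun n => s (e.symm n), hk, fun α p η hη => ?_, fun α β p q η η' c hη hη' h => ?_,
    fun α p η hη => ?_⟩
  · obtain ⟨n, hn⟩ := h1 α p η hη
    exact ⟨e n, by simpa using hn⟩
  · exact h2 α β p q η η' c hη hη' fun n => by simpa using h (e n)
  · rw [injective_iff_map_eq_zero]
    intro v hv
    rw [fderiv_pi fun n => ((s (e.symm n)).holo α).differentiableAt] at hv
    exact h3 α p η hη v fun n => by simpa using congrFun hv (e n)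

theorem immersion_aux {F : (ℂ × ℂ) × V2 → ℂ} (hF : Differentiable ℂ F) {k : ℕ}
    (hh : ∀ p η (c : ℂ), F (p, c • η) = c ^ k * F (p, η)) {p : ℂ × ℂ} {η : V2} (hη : η ≠ 0)
    (h0 : F (p, η) ≠ 0) (v : (ℂ × ℂ) × V2)
    (h1 : ∀ j, fderiv ℂ (fun x => F x * x.2 j) (p, η) v = 0)
    (h2 : ∀ j, fderiv ℂ (fun x => F x * x.2 j * x.1.1) (p, η) v = 0)
    (h3 : ∀ j, fderiv ℂ (fun x => F x * x.2 j * x.1.2) (p, η) v = 0) : v = 0 := by
  obtain ⟨j, hj⟩ := Function.ne_iff.mp hη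
  simp only [Pi.zero_apply] at hj
  have hc : ∀ j, HasFDerivAt (fun x : (ℂ × ℂ) × V2 => x.2 j)
      ((ContinuousLinearMap.proj j).comp (ContinuousLinearMap.snd ℂ (ℂ × ℂ) V2)) (p, η) :=
    fun j => ((ContinuousLinearMap.proj j).comp (ContinuousLinearMap.snd ℂ (ℂ × ℂ) V2)).hasFDerivAt
  have hz : HasFDerivAt (fun x : (ℂ × ℂ) × V2 => x.1.1)
      ((ContinuousLinearMap.fst ℂ ℂ ℂ).comp (ContinuousLinearMap.fst ℂ (ℂ × ℂ) V2)) (p, η) :=
    ((ContinuousLinearMap.fst ℂ ℂ ℂ).comp (ContinuousLinearMap.fst ℂ (ℂ × ℂ) V2)).hasFDerivAt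
  have hw : HasFDerivAt (fun x : (ℂ × ℂ) × V2 => x.1.2)
      ((ContinuousLinearMap.snd ℂ ℂ ℂ).comp (ContinuousLinearMap.fst ℂ (ℂ × ℂ) V2)) (p, η) :=
    ((ContinuousLinearMap.snd ℂ ℂ ℂ).comp (ContinuousLinearMap.fst ℂ (ℂ × ℂ) V2)).hasFDerivAt
  have hD := (hF (p, η)).hasFDerivAt
  set D := fderiv ℂ F (p, η) with hDdef
  have e1 : ∀ j, F (p, η) * v.2 j + η j * D v = 0 := fun j => by
    have := h1 j
    rw [show (fun x => F x * x.2 j) = F * fun x => x.2 j from rfl, (hD.mul (hc j)).fderiv] at this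
    simpa using this
  have e2 : v.1.1 = 0 := by
    have := h2 j
    rw [show (fun x => F x * x.2 j * x.1.1) = (F * fun x => x.2 j) * fun x => x.1.1 from rfl,
      ((hD.mul (hc j)).mul hz).fderiv] at this
    simp only [ContinuousLinearMap.add_apply, ContinuousLinearMap.smul_apply, Pi.mul_apply,
      ContinuousLinearMap.comp_apply, ContinuousLinearMap.coe_fst', ContinuousLinearMap.coe_snd',
      ContinuousLinearMap.proj_apply, smul_eq_mul, e1 j, mul_zero, add_zero] at this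
    simpa [h0, hj] using this
  have e3 : v.1.2 = 0 := by
    have := h3 j
    rw [show (fun x => F x * x.2 j * x.1.2) = (F * fun x => x.2 j) * fun x => x.1.2 from rfl,
      ((hD.mul (hc j)).mul hw).fderiv] at this
    simp only [ContinuousLinearMap.add_apply, ContinuousLinearMap.smul_apply, Pi.mul_apply,
      ContinuousLinearMap.comp_apply, ContinuousLinearMap.coe_fst', ContinuousLinearMap.coe_snd',
      ContinuousLinearMap.proj_apply, smul_eq_mul, e1 j, mul_zero, add_zero] at this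
    simpa [h0, hj] using this
  have euler : D (0, η) = k * F (p, η) := by
    have l1 : HasDerivAt (fun c : ℂ => ((p, c • η) : (ℂ × ℂ) × V2)) (0, η) 1 := by
      simpa using (hasDerivAt_const (1 : ℂ) p).prodMk ((hasDerivAt_id (1 : ℂ)).smul_const η)
    have hD' : HasFDerivAt F D (p, (1 : ℂ) • η) := by simpa using hD
    have l2 := hD'.comp_hasDerivAt (1 : ℂ) l1
    have l3 : HasDerivAt (fun c : ℂ => c ^ k * F (p, η)) (k * F (p, η)) 1 := by
      simpa using (hasDerivAt_pow k (1 : ℂ)).mul_const (F (p, η))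
    have : (F ∘ fun c : ℂ => ((p, c • η) : (ℂ × ℂ) × V2)) = fun c => c ^ k * F (p, η) :=
      funext fun c => hh p η c
    rw [this] at l2
    exact l2.unique l3
  set τ := -D v / F (p, η) with hτ
  have hv : v = τ • ((0 : ℂ × ℂ), η) := by
    refine Prod.ext (Prod.ext (by simpa using e2) (by simpa using e3)) (funext fun i => ?_)
    simp only [Prod.smul_snd, Pi.smul_apply, smul_eq_mul, hτ]
    field_simp
    linear_combination e1 i
  have hτ0 : τ = 0 := by
    have a1 : D v = τ * (k * F (p, η)) := by rw [hv, map_smul, euler, smul_eq_mul]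
    have a2 : τ * F (p, η) = -D v := by rw [hτ]; field_simp
    have a3 : τ * ((k + 1) * F (p, η)) = 0 := by linear_combination a2 - a1
    exact (mul_eq_zero.mp a3).resolve_right (mul_ne_zero (by exact_mod_cast k.succ_ne_zero) h0)
  rw [hv, hτ0, zero_smul]

/-- The linear forms generating `G (0, 3)`. -/
noncomputable def tau (i : Fin 2 × Fin 2) : Fin 2 → V2 → V2 → ℂ → ℂ → ℂ :=
  if i.1 = 0 then fun _ X _ c _ => X i.2 ^ 3 * c else fun b X Y c l =>
    Y i.2 ^ 9 * l + (((b : ℕ) : ℂ) - (i.2 : ℕ)) * Y i.2 * KK X Y / Y b ^ 8 * c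

theorem cone_tau (i : Fin 2 × Fin 2) : Cone 1 0 3 (tau i) := by
  unfold tau
  split_ifs
  · simpa using ((cone_X i.2).pow 3).mul cone_c
  · exact cone_L i.2

/-- The index of the form equal to the `j`-th fibre coordinate in chart `α`. -/
def tix (α : Fin 2 × Fin 2) (j : Fin 2) : Fin 2 × Fin 2 := (j, if j = 0 then α.1 else α.2)

theorem pull_tau (m : ℕ) (α : Fin 2 × Fin 2) (j : Fin 2) (x : (ℂ × ℂ) × V2) :
    pull m (tau (tix α j)) α x = x.2 j := by
  fin_cases j <;> simp [pull, tau, tix]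

/-- The other index. -/
def oth (a : Fin 2) : Fin 2 := if a = 0 then 1 else 0

theorem hom_oth (a : Fin 2) (z : ℂ) : hom a z (oth a) = z := by
  fin_cases a <;> simp [oth]

theorem EE_ample (m : ℕ) (hm : 1 ≤ m) : (EE m).Ample := by
  obtain ⟨f, hf, hne⟩ := exists_bpf (6 * m - 1)
  have hk : 2 * (6 * m - 1) + 1 + 1 = 12 * m := by omega
  rw [hk] at hf
  let σ : (Fin 3 × Fin 2 × Fin 2) × (Fin 2 × Fin 2) × Fin 2 × Fin 2 × Fin 2 →
      Fin 2 × Fin 2 → (ℂ × ℂ) × V2 → ℂ := fun n α x =>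
    pull m (f n.1) α x * pull m (tau n.2.1) α x * hom α.1 x.1.1 n.2.2.1 ^ (3 * m) *
      hom α.1 x.1.1 n.2.2.2.1 ^ 1 * hom α.2 x.1.2 n.2.2.2.2
  have hσ : ∀ n, TSec m (12 * m + 1) 0 0 (σ n) := fun n => by
    have := (((((hf n.1).tsec m).mul ((cone_tau n.2.1).tsec m)).mul (tsec_x m n.2.2.1 (3 * m))).mul
      (tsec_x m n.2.2.2.1 1)).mul (tsec_y m n.2.2.2.2)
    convert this using 1 <;> push_cast <;> ring
  let s : _ → Sec (EE m) (12 * m + 1) := fun n =>
    { σ := σ n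
      holo := (hσ n).holo
      homog := (hσ n).homog
      compat := fun α β p q η h => by
        obtain ⟨s, t, hs, ht, e1, e2⟩ := chart_eq_iff.mp h
        have := (hσ n).compat α β p q η s t hs ht e1 e2
        rw [zpow_zero, zpow_zero, one_mul, one_mul] at this
        exact this }
  have hF : ∀ α p η, η ≠ 0 → ∃ u j, pull m (f u) α (p, η) ≠ 0 ∧ η j ≠ 0 := by
    intro α p η hη
    obtain ⟨j, hj⟩ := Function.ne_iff.mp hη
    obtain ⟨u, hu⟩ := hne α.1 α.2 (p.1 ^ m) (p.2 ^ m) (η 0) (η 1) (by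
      fin_cases j
      · exact Or.inl hj
      · exact Or.inr hj)
    exact ⟨u, j, hu, hj⟩
  have h1 : ∀ α p η, η ≠ 0 → ∃ n, (s n).σ α (p, η) ≠ 0 := by
    intro α p η hη
    obtain ⟨u, j, hu, hj⟩ := hF α p η hη
    exact ⟨(u, tix α j, α.1, α.1, α.2), by simp [s, σ, pull_tau, hu, hj]⟩
  refine ample_of_family s (by omega) h1 ?_ ?_
  · intro α β p q η η' c hη hη' h
    have hc : c ≠ 0 := by
      rintro rfl
      obtain ⟨n, hn⟩ := h1 β q η' hη'
      exact hn (by simpa using h n)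
    obtain ⟨u, j, hu, hj⟩ := hF α p η hη
    simp only [s, σ, Prod.forall, pow_one] at h
    set F := pull m (f u) α (p, η)
    set F' := pull m (f u) β (q, η')
    set x' := hom β.1 q.1
    set y' := hom β.2 q.2
    have a0 := h u.1 u.2.1 u.2.2 (tix α j).1 (tix α j).2 α.1 α.1 α.2
    simp only [Prod.mk.eta, pull_tau, hom_self, one_pow, mul_one] at a0
    set T' := pull m (tau (tix α j)) β (q, η')
    have n0 : F' * T' * x' α.1 ^ (3 * m) * x' α.1 * y' α.2 ≠ 0 := by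
      rw [a0]; exact mul_ne_zero hc (mul_ne_zero hu hj)
    have ny : y' α.2 ≠ 0 := right_ne_zero_of_mul n0
    have nx : x' α.1 ≠ 0 := right_ne_zero_of_mul (left_ne_zero_of_mul n0)
    have n1 : F' * T' * x' α.1 ^ (3 * m) ≠ 0 := left_ne_zero_of_mul (left_ne_zero_of_mul n0)
    have nF : F' ≠ 0 := left_ne_zero_of_mul (left_ne_zero_of_mul n1)
    have e1 : x' = x' α.1 • hom α.1 p.1 := by
      funext i
      have a1 := h u.1 u.2.1 u.2.2 (tix α j).1 (tix α j).2 α.1 i α.2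
      simp only [Prod.mk.eta, pull_tau, hom_self, one_pow, mul_one] at a1
      apply mul_left_cancel₀ (mul_ne_zero n1 ny)
      simp only [Pi.smul_apply, smul_eq_mul]
      linear_combination a1 - hom α.1 p.1 i * a0
    have e2 : y' = y' α.2 • hom α.2 p.2 := by
      funext i
      have a1 := h u.1 u.2.1 u.2.2 (tix α j).1 (tix α j).2 α.1 α.1 i
      simp only [Prod.mk.eta, pull_tau, hom_self, one_pow, mul_one] at a1
      apply mul_left_cancel₀ (mul_ne_zero n1 nx)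
      simp only [Pi.smul_apply, smul_eq_mul]
      linear_combination a1 - hom α.2 p.2 i * a0
    refine ⟨chart_eq_iff.mpr ⟨_, _, nx, ny, e1, e2⟩, ?_⟩
    have hz : x' α.1 ^ ((m : ℤ) * 0 - (1 : ℕ)) * y' α.2 ^ ((m : ℤ) * 3 - (1 : ℕ)) ≠ 0 :=
      mul_ne_zero (zpow_ne_zero _ nx) (zpow_ne_zero _ ny)
    refine ⟨c * F / (F' * x' α.1 ^ (3 * m) * x' α.1 * y' α.2) /
      (x' α.1 ^ ((m : ℤ) * 0 - (1 : ℕ)) * y' α.2 ^ ((m : ℤ) * 3 - (1 : ℕ))), funext fun i => ?_⟩
    have a1 := h u.1 u.2.1 u.2.2 (tix β i).1 (tix β i).2 α.1 α.1 α.2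
    have a2 := ((cone_tau (tix β i)).tsec m).compat α β p q η _ _ nx ny e1 e2
    simp only [Prod.mk.eta, pull_tau, hom_self, one_pow, mul_one] at a1 a2
    simp only [Pi.smul_apply, smul_eq_mul]
    change _ = _ * (η ᵥ* gm m α β p) i
    rw [a2]
    generalize x' α.1 ^ ((m : ℤ) * 0 - (1 : ℕ)) * y' α.2 ^ ((m : ℤ) * 3 - (1 : ℕ)) = Z at hz
    field_simp
    linear_combination a1
  · intro α p η hη v h
    obtain ⟨u, -, hu, -⟩ := hF α p η hη
    refine immersion_aux (((hf u).tsec m).holo α) (((hf u).tsec m).homog α) hη hu v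
      (fun j => ?_) (fun j => ?_) (fun j => ?_)
    · simpa [s, σ, pull_tau] using h (u, tix α j, α.1, α.1, α.2)
    · simpa [s, σ, pull_tau, hom_oth] using h (u, tix α j, α.1, oth α.1, α.2)
    · simpa [s, σ, pull_tau, hom_oth] using h (u, tix α j, α.1, α.1, oth α.2)

end Vale.Agent.P296
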