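import Vale.Agent.P296.Cone

/-!
The bundles `E m = f_m^* G ⊗ O(1, 1)` and their twisted sections.
-/

namespace Vale.Agent.P296

open Matrix

theorem chart_eq_iff {α β : Fin 2 × Fin 2} {p q : ℂ × ℂ} : chart α p = chart β q ↔
    ∃ s t : ℂ, s ≠ 0 ∧ t ≠ 0 ∧ hom β.1 q.1 = s • hom α.1 p.1 ∧ hom β.2 q.2 = t • hom α.2 p.2 := by
  rw [chart, chart, Prod.mk.injEq, eq_comm, Projectivization.mk_eq_mk_iff', eq_comm,
    Projectivization.mk_eq_mk_iff']
  constructor
  · rintro ⟨⟨s, hs⟩, ⟨t, ht⟩⟩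
    refine ⟨s, t, ?_, ?_, hs.symm, ht.symm⟩
    · rintro rfl
      exact hom_ne_zero _ _ (by simpa using hs.symm)
    · rintro rfl
      exact hom_ne_zero _ _ (by simpa using ht.symm)
  · rintro ⟨s, t, -, -, hs, ht⟩
    exact ⟨⟨s, hs.symm⟩, ⟨t, ht.symm⟩⟩

theorem smul_hom_one {a a' : Fin 2} {u u' s : ℂ} (h : hom a' u' = s • hom a u) :
    s * hom a u a' = 1 := by
  simpa using (congrFun h a').symm

theorem smul_hom_pow {a a' : Fin 2} {u u' s : ℂ} (h : hom a' u' = s • hom a u) (m : ℕ) :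
    hom a' (u' ^ m) = s ^ m • hom a (u ^ m) := by
  have : ∀ (a : Fin 2) (u : ℂ) i, hom a (u ^ m) i = hom a u i ^ m := by
    intro a u i
    unfold hom
    split_ifs <;> simp
  funext i
  rw [this, h]
  simp [this, mul_pow]

theorem range_ne {α β : Fin 2 × Fin 2} {p : ℂ × ℂ} (h : chart α p ∈ Set.range (chart β))
    (m : ℕ) : hom α.1 (p.1 ^ m) β.1 ≠ 0 ∧ hom α.2 (p.2 ^ m) β.2 ≠ 0 := by
  obtain ⟨q, hq⟩ := h
  obtain ⟨s, t, -, -, hs, ht⟩ := chart_eq_iff.mp hq.symm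
  exact ⟨right_ne_zero_of_mul_eq_one (smul_hom_one (smul_hom_pow hs m)),
    right_ne_zero_of_mul_eq_one (smul_hom_one (smul_hom_pow ht m))⟩

/-- The transition matrices in homogeneous coordinates. -/
noncomputable def GG (α β : Fin 2 × Fin 2) (x y X Y : V2) : Matrix (Fin 2) (Fin 2) ℂ :=
  !![x β.1 * X β.1 ^ 3 * y β.2 / Y β.2 ^ 3,
      x β.1 * y β.2 * Y β.2 ^ 6 * ((((α.2 : ℕ) : ℂ) - (β.2 : ℕ)) * kap X Y);
    0, x β.1 * y β.2 * Y β.2 ^ 6]

/-- The transition matrices. -/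
noncomputable def gm (m : ℕ) (α β : Fin 2 × Fin 2) (p : ℂ × ℂ) : Matrix (Fin 2) (Fin 2) ℂ :=
  GG α β (hom α.1 p.1) (hom α.2 p.2) (hom α.1 (p.1 ^ m)) (hom α.2 (p.2 ^ m))

theorem diff_hom_pow (a i : Fin 2) (m : ℕ) : Differentiable ℂ fun z : ℂ => hom a (z ^ m) i :=
  (diff_hom a i).comp (by fun_prop)

theorem diff_bi_pow (a b : Fin 2) (m p q : ℕ) (c : ℕ → ℕ → ℤ) :
    Differentiable ℂ fun x : ℂ × ℂ => bi p q c (hom a (x.1 ^ m) 0) (hom a (x.1 ^ m) 1)
      (hom b (x.2 ^ m) 0) (hom b (x.2 ^ m) 1) :=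
  diff_bi p q c ((diff_hom_pow a 0 m).comp differentiable_fst)
    ((diff_hom_pow a 1 m).comp differentiable_fst) ((diff_hom_pow b 0 m).comp differentiable_snd)
    ((diff_hom_pow b 1 m).comp differentiable_snd)

theorem diffOn_div {c d : ℂ × ℂ → ℂ} {S : Set (ℂ × ℂ)} (hc : DifferentiableOn ℂ c S)
    (hd : DifferentiableOn ℂ d S) (h : ∀ x ∈ S, d x ≠ 0) :
    DifferentiableOn ℂ (fun x => c x / d x) S := by
  simp only [div_eq_mul_inv]
  exact hc.mul (hd.inv h)

/-- The bundle `f_m^* G ⊗ O(1, 1)`. -/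
noncomputable def EE (m : ℕ) : Bundle 2 where
  g := gm m
  holo α β i j := by
    have h1 : Differentiable ℂ fun p : ℂ × ℂ => hom α.1 p.1 β.1 :=
      (diff_hom _ _).comp differentiable_fst
    have h2 : Differentiable ℂ fun p : ℂ × ℂ => hom α.2 p.2 β.2 :=
      (diff_hom _ _).comp differentiable_snd
    have h3 : Differentiable ℂ fun p : ℂ × ℂ => hom α.1 (p.1 ^ m) β.1 :=
      (diff_hom_pow _ _ m).comp differentiable_fst
    have h4 : ∀ i, Differentiable ℂ fun p : ℂ × ℂ => hom α.2 (p.2 ^ m) i := fun i =>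
      (diff_hom_pow _ _ m).comp differentiable_snd
    fin_cases i <;> fin_cases j
    · simp only [gm, GG, Fin.zero_eta, of_apply, cons_val', cons_val_zero, cons_val_fin_one]
      exact diffOn_div (c := fun p : ℂ × ℂ => hom α.1 p.1 β.1 * hom α.1 (p.1 ^ m) β.1 ^ 3 *
        hom α.2 p.2 β.2) (d := fun p : ℂ × ℂ => hom α.2 (p.2 ^ m) β.2 ^ 3)
        ((h1.mul (h3.pow 3)).mul h2).differentiableOn ((h4 _).pow 3).differentiableOn
        fun p hp => pow_ne_zero _ (range_ne hp m).2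
    · simp only [gm, GG, Fin.zero_eta, Fin.mk_one, of_apply, cons_val', cons_val_zero,
        cons_val_one, cons_val_fin_one]
      refine ((h1.mul h2).mul ((h4 _).pow 6)).differentiableOn.mul ?_
      by_cases hb : α.2 = β.2
      · simp [hb]
      · refine (differentiableOn_const _).mul (diffOn_div
          (c := fun p : ℂ × ℂ => KK (hom α.1 (p.1 ^ m)) (hom α.2 (p.2 ^ m)))
          (d := fun p : ℂ × ℂ => (hom α.2 (p.2 ^ m) 0 * hom α.2 (p.2 ^ m) 1) ^ 8)
          (diff_bi_pow _ _ m _ _ _).differentiableOn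
          (((h4 0).mul (h4 1)).pow 8).differentiableOn fun p hp => pow_ne_zero _ ?_)
        have := (range_ne hp m).2
        obtain ⟨a, b⟩ := α
        obtain ⟨a', b'⟩ := β
        fin_cases b <;> fin_cases b' <;> simp_all
    · simp [gm, GG]
    · simp only [gm, GG, Fin.mk_one, of_apply, cons_val', cons_val_one, cons_val_fin_one]
      exact ((h1.mul h2).mul ((h4 _).pow 6)).differentiableOn
  refl α p := by
    ext i j
    fin_cases i <;> fin_cases j <;> simp [gm, GG]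
  cocycle α β γ p q h hγ := by
    obtain ⟨s, t, hs, ht, e1, e2⟩ := chart_eq_iff.mp h
    have e3 := smul_hom_pow e1 m
    have e4 := smul_hom_pow e2 m
    have n1 := smul_hom_one e1
    have n2 := smul_hom_one e2
    have n3 := smul_hom_one e3
    have n4 := smul_hom_one e4
    have hY := (range_ne hγ m).2
    have hτ := pow_ne_zero m ht
    have hσ := pow_ne_zero m hs
    rw [gm, gm, gm, e1, e2, e3, e4]
    generalize s ^ m = σ at *
    generalize t ^ m = τ at *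
    rw [mul_comm, ← eq_div_iff (by assumption)] at n1 n2 n3 n4
    ext i j
    fin_cases i <;> fin_cases j
    · simp [GG, Matrix.mul_apply, Fin.sum_univ_two, n1, n2, n3, n4]
      field_simp
    · simp [GG, Matrix.mul_apply, Fin.sum_univ_two, n1, n2, n3, n4, kap_smul σ hτ]
      field_simp
      ring
    · simp [GG, Matrix.mul_apply, Fin.sum_univ_two]
    · simp [GG, Matrix.mul_apply, Fin.sum_univ_two, n1, n2, n4]
      field_simp

/-- Sections of `O_{ℙ(E)}(k) ⊗ O(n₁, n₂)`. -/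
structure TSec (m k : ℕ) (n1 n2 : ℤ) (σ : Fin 2 × Fin 2 → (ℂ × ℂ) × V2 → ℂ) : Prop where
  holo : ∀ α, Differentiable ℂ (σ α)
  homog : ∀ α p η (c : ℂ), σ α (p, c • η) = c ^ k * σ α (p, η)
  compat : ∀ (α β : Fin 2 × Fin 2) (p q : ℂ × ℂ) η (s t : ℂ), s ≠ 0 → t ≠ 0 →
    hom β.1 q.1 = s • hom α.1 p.1 → hom β.2 q.2 = t • hom α.2 p.2 →
    σ β (q, η ᵥ* gm m α β p) = s ^ n1 * t ^ n2 * σ α (p, η)

theorem TSec.mul {m k n1 n2 σ k' n1' n2' σ'} (h : TSec m k n1 n2 σ) (h' : TSec m k' n1' n2' σ') :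
    TSec m (k + k') (n1 + n1') (n2 + n2') fun α x => σ α x * σ' α x where
  holo α := (h.holo α).mul (h'.holo α)
  homog α p η c := by rw [h.homog, h'.homog]; ring
  compat α β p q η s t hs ht e1 e2 := by
    rw [h.compat α β p q η s t hs ht e1 e2, h'.compat α β p q η s t hs ht e1 e2, zpow_add₀ hs,
      zpow_add₀ ht]
    ring

theorem tsec_x (m : ℕ) (a : Fin 2) (n : ℕ) : TSec m 0 n 0 fun α x => hom α.1 x.1.1 a ^ n where
  holo α := ((diff_hom _ _).comp (by fun_prop)).pow n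
  homog := by simp
  compat α β p q η s t _ _ e1 _ := by simp [e1, mul_pow]

theorem tsec_y (m : ℕ) (a : Fin 2) : TSec m 0 0 1 fun α x => hom α.2 x.1.2 a where
  holo α := (diff_hom _ _).comp (by fun_prop)
  homog := by simp
  compat α β p q η s t _ _ _ e2 := by simp [e2]

/-- Pull-back of a cone function. -/
def pull (m : ℕ) (f : Fin 2 → V2 → V2 → ℂ → ℂ → ℂ) (α : Fin 2 × Fin 2) (x : (ℂ × ℂ) × V2) : ℂ :=
  f α.2 (hom α.1 (x.1.1 ^ m)) (hom α.2 (x.1.2 ^ m)) (x.2 0) (x.2 1)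

theorem Cone.tsec {k e d f} (h : Cone k e d f) (m : ℕ) :
    TSec m k (m * e - k) (m * d - k) (pull m f) where
  holo α := (h.half α.2).df.comp (f := fun x : (ℂ × ℂ) × V2 =>
      (hom α.1 (x.1.1 ^ m), x.1.2 ^ m, x.2 0, x.2 1))
    ((differentiable_pi.mpr fun i => (diff_hom_pow _ i m).comp (by fun_prop)).prodMk (by fun_prop))
  homog α p η c := (h.half α.2).hg _ _ _ _ _
  compat α β p q η s t hs ht e1 e2 := by
    have e3 := smul_hom_pow e1 m
    have e4 := smul_hom_pow e2 m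
    have n1 := smul_hom_one e1
    have n2 := smul_hom_one e2
    have n3 := smul_hom_one e3
    have n4 := smul_hom_one e4
    have hτ := pow_ne_zero m ht
    have hσ := pow_ne_zero m hs
    have hY := right_ne_zero_of_mul_eq_one n4
    have z1 : s ^ ((m : ℤ) * e - k) = (s ^ m) ^ e * s⁻¹ ^ k := by
      rw [zpow_sub₀ hs, _root_.zpow_mul, zpow_natCast, zpow_natCast, inv_pow, div_eq_mul_inv]
    have z2 : t ^ ((m : ℤ) * d - k) = (t ^ m) ^ d * t⁻¹ ^ k := by
      rw [zpow_sub₀ ht, _root_.zpow_mul, zpow_natCast, zpow_natCast, inv_pow, div_eq_mul_inv]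
    simp only [pull]
    rw [z1, z2, e3, e4, (h.half β.2).sc _ _ hσ hτ, gm]
    generalize s ^ m = σ at *
    generalize t ^ m = τ at *
    set X := hom α.1 (p.1 ^ m) with hX
    set Y := hom α.2 (p.2 ^ m) with hY'
    rw [mul_comm, ← eq_div_iff (by assumption)] at n1 n2 n3 n4
    have c0 : σ ^ 3 * (τ ^ 3)⁻¹ * (η ᵥ* GG α β (hom α.1 p.1) (hom α.2 p.2) X Y) 0
        = (s⁻¹ * t⁻¹) * η 0 := by
      simp [GG, vecMul, dotProduct, Fin.sum_univ_two, n1, n2, n3, n4]
      field_simp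
    have c1 : τ ^ 6 * (η ᵥ* GG α β (hom α.1 p.1) (hom α.2 p.2) X Y) 1
        = (s⁻¹ * t⁻¹) * (η 1 + (((α.2 : ℕ) : ℂ) - (β.2 : ℕ)) * kap X Y * η 0) := by
      simp [GG, vecMul, dotProduct, Fin.sum_univ_two, n1, n2, n4]
      field_simp
      ring
    have c2 : f β.2 X Y (η 0) (η 1 + (((α.2 : ℕ) : ℂ) - (β.2 : ℕ)) * kap X Y * η 0)
        = f α.2 X Y (η 0) (η 1) := by
      have hb : Y α.2 ≠ 0 := by simp [hY']
      generalize α.2 = b at *
      generalize β.2 = b' at *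
      fin_cases b <;> fin_cases b'
      · simp
      · rw [show f (⟨0, _⟩ : Fin 2) = f 0 from rfl, h.gl X Y _ _ hb hY]
        simp [sub_eq_add_neg]
      · rw [show f (⟨0, _⟩ : Fin 2) = f 0 from rfl, h.gl X Y _ _ hY hb]
        simp
      · simp
    rw [c0, c1, (h.half β.2).hg, c2]
    ring

end Vale.Agent.P296
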