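import Vale.Agent.P296.Alg

/-!
Vanishing of the first Čech cohomology of `Sym^k G (e, d)` and lifting of sections.
-/

namespace Vale.Agent.P296

open MvPolynomial (C)

/-- The fibre coordinate `χ`. -/
noncomputable def cc : AA := MvPolynomial.X 0
/-- The fibre coordinate `ℓ₀`. -/
noncomputable def l0 : AA := MvPolynomial.X 1
/-- The fibre coordinate `ℓ₁`. -/
noncomputable def l1 : AA := l0 - C ka * cc
/-- The linear form vanishing on the first sub line bundle. -/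
noncomputable def et : AA := C ze * l0 - C th0 * cc

theorem et_eq : et = C ze * l1 - C th1 * cc := by
  rw [et, l1, ← th0_sub, map_sub, map_mul]
  ring

/-- Forms of degree `k` with twist `(e, d)`. -/
noncomputable def Fm (l : AA) (P : ℤ → ℤ → Prop) (k e : ℕ) (d : ℤ) : Submodule ℂ AA :=
  Submodule.span ℂ {F | ∃ (r s i : ℕ) (j : ℤ), r + s = k ∧ i ≤ e + 3 * r ∧
    P (d - 3 * r + 6 * s) j ∧ F = C (mon i j) * cc ^ r * l ^ s}

section Generic

variable {l : AA} {P : ℤ → ℤ → Prop}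

theorem C_smul (a : ℂ) (φ : BB) : (C (a • φ) : AA) = a • C φ := by
  rw [Algebra.smul_def, Algebra.smul_def, map_mul]
  rfl

theorem Fsub {S : Submodule ℂ AA} {a b : AA} (ha : a ∈ S) (hb : b ∈ S) : a - b ∈ S := by
  have : a - b = a + (-1 : ℂ) • b := by
    rw [Algebra.smul_def, map_neg, map_one]; ring
  rw [this]
  exact S.add_mem ha (S.smul_mem _ hb)

theorem Fm_gen {k e : ℕ} {d : ℤ} {r s : ℕ} (hrs : r + s = k) {φ : BB}
    (h : φ ∈ W (e + 3 * r) (P (d - 3 * r + 6 * s))) : C φ * cc ^ r * l ^ s ∈ Fm l P k e d := by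
  induction h using Submodule.span_induction with
  | mem φ hφ =>
    obtain ⟨i, j, hi, hj, rfl⟩ := hφ
    exact Submodule.subset_span ⟨r, s, i, j, hrs, hi, hj, rfl⟩
  | zero => simp
  | add a b _ _ ha hb => rw [map_add, add_mul, add_mul]; exact Submodule.add_mem _ ha hb
  | smul c a _ ha =>
    rw [C_smul, smul_mul_assoc, smul_mul_assoc]; exact Submodule.smul_mem _ _ ha

theorem Fm_ind {k e : ℕ} {d : ℤ} {S : Submodule ℂ AA} (x : AA)
    (h : ∀ (r s i : ℕ) (j : ℤ), r + s = k → i ≤ e + 3 * r → P (d - 3 * r + 6 * s) j →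
      x * (C (mon i j) * cc ^ r * l ^ s) ∈ S) {F : AA} (hF : F ∈ Fm l P k e d) : x * F ∈ S := by
  induction hF using Submodule.span_induction with
  | mem φ hφ =>
    obtain ⟨r, s, i, j, h1, h2, h3, rfl⟩ := hφ
    exact h r s i j h1 h2 h3
  | zero => simp
  | add a b _ _ ha hb => rw [mul_add]; exact Submodule.add_mem _ ha hb
  | smul c a _ ha => rw [mul_smul_comm]; exact Submodule.smul_mem _ _ ha

theorem Fm_c {k e : ℕ} {d : ℤ} {F : AA} (hF : F ∈ Fm l P k (e + 3) (d - 3)) :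
    cc * F ∈ Fm l P (k + 1) e d := by
  refine Fm_ind cc (fun r s i j h1 h2 h3 => ?_) hF
  refine Submodule.subset_span ⟨r + 1, s, i, j, by omega, by omega, ?_, by ring⟩
  convert h3 using 1
  push_cast
  ring

theorem Fm_l {k e : ℕ} {d : ℤ} {F : AA} (hF : F ∈ Fm l P k e (d + 6)) :
    l * F ∈ Fm l P (k + 1) e d := by
  refine Fm_ind l (fun r s i j h1 h2 h3 => ?_) hF
  refine Submodule.subset_span ⟨r, s + 1, i, j, by omega, by omega, ?_, by ring⟩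
  convert h3 using 1
  push_cast
  ring

theorem Fm_C (hP : AddSh P) {k e e' : ℕ} {d d' : ℤ} {φ : BB} (hφ : φ ∈ W e' (P d')) {F : AA}
    (hF : F ∈ Fm l P k e d) : C φ * F ∈ Fm l P k (e + e') (d + d') := by
  refine Fm_ind (C φ) (fun r s i j h1 h2 h3 => ?_) hF
  have : C φ * (C (mon i j) * cc ^ r * l ^ s) = C (φ * mon i j) * cc ^ r * l ^ s := by
    rw [map_mul]; ring
  rw [this]
  refine Fm_gen h1 (W_mono (by omega) (fun _ h => h) (W_mul (P'' := P (d + d' - 3 * r + 6 * s))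
    (fun a b ha hb => ?_) hφ (mon_mem (P := P (d - 3 * r + 6 * s)) h2 h3)))
  convert hP _ _ _ _ ha hb using 1
  ring

theorem Fm_et (hP : AddSh P) {θ : BB} (hze : ze ∈ W 3 (P 3)) (hθ : θ ∈ W 6 (P (-6)))
    {k e : ℕ} {d : ℤ} {F : AA} (hF : F ∈ Fm l P k e d) :
    (C ze * l - C θ * cc) * F ∈ Fm l P (k + 1) (e + 3) (d - 3) := by
  have : (C ze * l - C θ * cc) * F = l * (C ze * F) - cc * (C θ * F) := by ring
  rw [this]
  refine Fsub (Fm_l ?_) (Fm_c ?_)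
  · have e1 : d - 3 + 6 = d + 3 := by ring
    rw [e1]
    exact Fm_C hP hze hF
  · have e1 : d - 3 - 3 = d + -6 := by ring
    rw [e1, add_assoc]
    exact Fm_C hP hθ hF

theorem Fm_zero {e : ℕ} {d : ℤ} {F : AA} (hF : F ∈ Fm l P 0 e d) : ∃ φ ∈ W e (P d), F = C φ := by
  induction hF using Submodule.span_induction with
  | mem φ hφ =>
    obtain ⟨r, s, i, j, h1, h2, h3, rfl⟩ := hφ
    obtain rfl : r = 0 := by omega
    obtain rfl : s = 0 := by omega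
    exact ⟨mon i j, mon_mem (by omega) (by simpa using h3), by simp⟩
  | zero => exact ⟨0, Submodule.zero_mem _, by simp⟩
  | add a b _ _ ha hb =>
    obtain ⟨a, h, rfl⟩ := ha
    obtain ⟨b, h', rfl⟩ := hb
    exact ⟨a + b, Submodule.add_mem _ h h', by simp⟩
  | smul c a _ ha =>
    obtain ⟨a, h, rfl⟩ := ha
    exact ⟨c • a, Submodule.smul_mem _ _ h, (C_smul c a).symm⟩

theorem Fm_succ {k e : ℕ} {d : ℤ} {F : AA} (hF : F ∈ Fm l P (k + 1) e d) :
    ∃ φ ∈ W e (P (d + 6 * (k + 1 : ℕ))), ∃ F' ∈ Fm l P k (e + 3) (d - 3),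
      F = C φ * l ^ (k + 1) + cc * F' := by
  induction hF using Submodule.span_induction with
  | mem φ hφ =>
    obtain ⟨r, s, i, j, h1, h2, h3, rfl⟩ := hφ
    cases r with
    | zero =>
      obtain rfl : s = k + 1 := by omega
      exact ⟨mon i j, mon_mem (by omega) (by simpa using h3), 0, Submodule.zero_mem _, by simp⟩
    | succ r =>
      refine ⟨0, Submodule.zero_mem _, C (mon i j) * cc ^ r * l ^ s, Submodule.subset_span
        ⟨r, s, i, j, by omega, by omega, ?_, rfl⟩, by rw [map_zero]; ring⟩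
      convert h3 using 1
      push_cast
      ring
  | zero => exact ⟨0, Submodule.zero_mem _, 0, Submodule.zero_mem _, by simp⟩
  | add a b _ _ ha hb =>
    obtain ⟨a, h, a', k1, rfl⟩ := ha
    obtain ⟨b, h', b', k2, rfl⟩ := hb
    exact ⟨a + b, Submodule.add_mem _ h h', a' + b', Submodule.add_mem _ k1 k2, by
      rw [map_add]; ring⟩
  | smul c a _ ha =>
    obtain ⟨a, h, a', k1, rfl⟩ := ha
    exact ⟨c • a, Submodule.smul_mem _ _ h, c • a', Submodule.smul_mem _ _ k1, by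
      rw [C_smul, smul_add, smul_mul_assoc, mul_smul_comm]⟩

theorem Fm_top {k e : ℕ} {d : ℤ} (d' : ℤ) {F : AA} (hF : F ∈ Fm l P k e d) :
    F ∈ Fm l PT k e d' := by
  refine Submodule.span_mono ?_ hF
  rintro _ ⟨r, s, i, j, h1, h2, -, rfl⟩
  exact ⟨r, s, i, j, h1, h2, trivial, rfl⟩

theorem Fm_pow {k e : ℕ} {d : ℤ} {φ : BB} (h : φ ∈ W e (P (d + 6 * k))) :
    C φ * l ^ k ∈ Fm l P k e d := by
  have := Fm_gen (l := l) (P := P) (k := k) (e := e) (d := d) (r := 0) (s := k) (by simp)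
    (φ := φ) (by simpa using h)
  simpa using this

end Generic

theorem W_top {e : ℕ} {P : ℤ → Prop} (d : ℤ) {φ : BB} (h : φ ∈ W e P) : φ ∈ W e (PT d) :=
  W_mono le_rfl (fun _ _ => trivial) h

theorem l1_mul {k e : ℕ} {F : AA} (hF : F ∈ Fm l0 PT k e 0) : l1 * F ∈ Fm l0 PT (k + 1) e 0 := by
  have : l1 * F = l0 * F - cc * (C ka * F) := by rw [l1]; ring
  rw [this]
  exact Fsub (Fm_l (Fm_top _ hF)) (Fm_c (Fm_top _ (Fm_C addSh_PT ka_mem hF)))

theorem gen_l1 {e r i : ℕ} (j : ℤ) (h2 : i ≤ e + 3 * r) (s : ℕ) :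
    C (mon i j) * cc ^ r * l1 ^ s ∈ Fm l0 PT (r + s) e 0 := by
  induction s with
  | zero =>
    simpa using Fm_gen (l := l0) (P := PT) (k := r) (e := e) (d := 0) (r := r) (s := 0)
      rfl (mon_mem h2 trivial)
  | succ s ih =>
    have : C (mon i j) * cc ^ r * l1 ^ (s + 1) = l1 * (C (mon i j) * cc ^ r * l1 ^ s) := by ring
    rw [this, ← add_assoc]
    exact l1_mul ih

theorem Fm_l1 {P : ℤ → ℤ → Prop} {k e : ℕ} {d : ℤ} {F : AA} (hF : F ∈ Fm l1 P k e d) :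
    F ∈ Fm l0 PT k e 0 := by
  rw [← one_mul F]
  refine Fm_ind 1 (fun r s i j h1 h2 _ => ?_) hF
  rw [one_mul, ← h1]
  exact gen_l1 j h2 s

theorem mon_zero : mon 0 0 = 1 := by simp [mon]

theorem one_mem_W (P : ℤ → Prop) (h : P 0) : (1 : BB) ∈ W 0 P := mon_zero ▸ mon_mem le_rfl h

theorem pow_diff (n : ℕ) : ∃ G ∈ Fm l0 PT n 3 0, l0 ^ (n + 1) - l1 ^ (n + 1) = cc * G := by
  have hp : ∀ n : ℕ, C ka * l1 ^ n ∈ Fm l0 PT n 3 0 := fun n =>
    Fm_l1 (Fm_pow (l := l1) (P := PT) (d := 0) ka_mem)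
  induction n with
  | zero => exact ⟨_, hp 0, by rw [l1]; ring⟩
  | succ n ih =>
    obtain ⟨G, hG, h⟩ := ih
    refine ⟨l0 * G + C ka * l1 ^ (n + 1), add_mem (Fm_l (Fm_top _ hG)) (hp _), ?_⟩
    have : l0 = l1 + C ka * cc := by rw [l1]; ring
    linear_combination l0 * h + l1 ^ (n + 1) * this

/-- Evaluation at the first sub line bundle. -/
noncomputable def ev1 : AA →ₐ[BB] BB := MvPolynomial.aeval ![ze, th0]

/-- Evaluation at the second sub line bundle. -/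
noncomputable def ev2 : AA →ₐ[BB] BB := MvPolynomial.aeval ![0, 1]

@[simp] theorem ev1_C (φ : BB) : ev1 (C φ) = φ := by simp [ev1]
@[simp] theorem ev1_cc : ev1 cc = ze := by simp [ev1, cc]
@[simp] theorem ev1_l0 : ev1 l0 = th0 := by simp [ev1, l0]
@[simp] theorem ev1_l1 : ev1 l1 = th1 := by simp [l1, th0_sub]
@[simp] theorem ev1_et : ev1 et = 0 := by simp [et, mul_comm]
@[simp] theorem ev2_C (φ : BB) : ev2 (C φ) = φ := by simp [ev2]
@[simp] theorem ev2_cc : ev2 cc = 0 := by simp [ev2, cc]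
@[simp] theorem ev2_l0 : ev2 l0 = 1 := by simp [ev2, l0]

theorem ev1_smul (a : ℂ) (F : AA) : ev1 (a • F) = a • ev1 F := by
  rw [← one_mul F, ← smul_mul_assoc, ← map_one (C : BB →+* AA), ← C_smul]
  simp

theorem W_pow {e : ℕ} {φ : BB} (h : φ ∈ W e (PT 0)) (n : ℕ) : φ ^ n ∈ W (e * n) (PT 0) := by
  induction n with
  | zero => simpa using one_mem_W (PT 0) trivial
  | succ n ih => rw [pow_succ, mul_add, mul_one]; exact W_mul (fun _ _ _ _ => trivial) ih h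

theorem ev1_mem {k e : ℕ} {F : AA} (hF : F ∈ Fm l0 PT k e 0) : ev1 F ∈ W (6 * k + e) (PT 0) := by
  induction hF using Submodule.span_induction with
  | mem φ hφ =>
    obtain ⟨r, s, i, j, h1, h2, -, rfl⟩ := hφ
    simp only [map_mul, map_pow, ev1_C, ev1_cc, ev1_l0]
    exact W_mono (by omega) (fun _ h => h) (W_mul (P'' := PT 0) (fun _ _ _ _ => trivial)
      (W_mul (P'' := PT 0) (fun _ _ _ _ => trivial) (mon_mem (P := PT 0) h2 trivial)
        (W_pow (W_top 0 ze_mem0) r)) (W_pow (W_top 0 th0_mem) s))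
  | zero => simp
  | add a b _ _ ha hb => rw [map_add]; exact add_mem ha hb
  | smul c a _ ha => rw [ev1_smul]; exact Submodule.smul_mem _ _ ha

theorem lift {l : AA} {P : ℤ → ℤ → Prop} (hP : AddSh P) {θ : BB} (hl : ev1 l = θ)
    (hb : Bez P θ) (k : ℕ) : ∀ (e : ℕ) (d : ℤ), 9 ≤ e → ∀ φ ∈ W (6 * k + e) (P d),
      ∃ Φ ∈ Fm l P k e d, ev1 Φ = φ := by
  induction k with
  | zero =>
    intro e d _ φ hφ
    exact ⟨C φ, by simpa using Fm_pow (l := l) (k := 0) (d := d) (by simpa using hφ), ev1_C φ⟩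
  | succ k ih =>
    intro e d he φ hφ
    induction hφ using Submodule.span_induction with
    | mem φ hφ =>
      obtain ⟨i, j, hi, hj, rfl⟩ := hφ
      obtain ⟨a, i', ha, rfl, hi'⟩ : ∃ a i', (a = 0 ∨ a = 8) ∧ i = a + i' ∧ i' + 2 ≤ 6 * k + e := by
        by_cases h8 : 8 ≤ i
        · exact ⟨8, i - 8, Or.inr rfl, by omega, by omega⟩
        · exact ⟨0, i, Or.inl rfl, by omega, by omega⟩
      obtain ⟨t, ht, b, hb', h⟩ := hb a ha
      have hm : mon i' j ∈ W i' (P d) := mon_mem le_rfl hj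
      obtain ⟨Φ1, h1, e1⟩ := ih e (d + 6) he (mon i' j * t)
        (W_mono (by omega) (fun _ h => h) (W_mul (hP _ _) hm ht))
      obtain ⟨Φ2, h2, e2⟩ := ih (e + 3) (d - 3) (by omega) (mon i' j * b)
        (W_mono (by omega) (fun _ h => h) (W_mul (hP _ _) hm hb'))
      refine ⟨l * Φ1 + cc * Φ2, add_mem (Fm_l h1) (Fm_c h2), ?_⟩
      have : mon (a + i') j = mon a 0 * mon i' j := by rw [mon_mul, zero_add]
      rw [map_add, map_mul, map_mul, e1, e2, hl, ev1_cc, this, h]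
      ring
    | zero => exact ⟨0, zero_mem _, map_zero _⟩
    | add a b _ _ ha hb =>
      obtain ⟨a, h, rfl⟩ := ha
      obtain ⟨b, h', rfl⟩ := hb
      exact ⟨a + b, add_mem h h', map_add _ _ _⟩
    | smul c a _ ha =>
      obtain ⟨a, h, rfl⟩ := ha
      exact ⟨c • a, Submodule.smul_mem _ _ h, ev1_smul _ _⟩

theorem coprime_ze : IsCoprime ze th0 := by
  obtain ⟨t, -, b, -, h⟩ := bez0 0 (Or.inl rfl)
  exact ⟨b, t, by rw [← mon_zero, h]; ring⟩

theorem div_et (k : ℕ) : ∀ (e : ℕ) (F : AA), F ∈ Fm l0 PT (k + 1) (e + 3) 0 → ev1 F = 0 →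
    ∃ F' ∈ Fm l0 PT k e 0, F = et * F' := by
  have step : ∀ (k e : ℕ) (F : AA), F ∈ Fm l0 PT (k + 1) (e + 3) 0 → ev1 F = 0 →
      ∃ ψ ∈ W e (PT 0), ∃ F2 ∈ Fm l0 PT k (e + 3 + 3) 0, ev1 F2 = 0 ∧
        F = et * (C ψ * l0 ^ k) + cc * F2 := by
    intro k e F hF h0
    obtain ⟨φ, hφ, F1, hF1, rfl⟩ := Fm_succ hF
    simp only [map_add, map_mul, map_pow, ev1_C, ev1_l0, ev1_cc] at h0
    have hd : ze ∣ φ := by
      refine (coprime_ze.pow_right (n := k + 1)).dvd_of_dvd_mul_right ⟨-ev1 F1, ?_⟩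
      linear_combination h0
    obtain ⟨ψ, rfl⟩ := hd
    have hψ : ψ ∈ W e (PT 0) := by
      by_cases hz : ψ = 0
      · rw [hz]; exact zero_mem _
      · have := natDegree_le_of_W hφ
        rw [Polynomial.natDegree_mul ze_ne hz, natDegree_ze] at this
        exact W_of_natDegree (by omega)
    have hψθ : ψ * th0 ∈ W (e + 3 + 3) (PT (0 + 6 * k)) :=
      W_mono (by omega) (fun _ _ => trivial)
        (W_mul (P'' := PT 0) (fun _ _ _ _ => trivial) hψ th0_mem)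
    refine ⟨ψ, hψ, F1 + C (ψ * th0) * l0 ^ k, add_mem (Fm_top _ hF1) (Fm_pow hψθ), ?_, ?_⟩
    · refine (mul_eq_zero.mp ?_).resolve_left ze_ne
      simp only [map_add, map_mul, map_pow, ev1_C, ev1_l0]
      linear_combination h0
    · rw [et, map_mul, map_mul]
      ring
  induction k with
  | zero =>
    intro e F hF h0
    obtain ⟨ψ, hψ, F2, h2, e2, rfl⟩ := step 0 e F hF h0
    obtain ⟨φ, -, rfl⟩ := Fm_zero h2
    rw [ev1_C] at e2
    exact ⟨_, Fm_pow (W_top _ hψ), by simp [e2]⟩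
  | succ k ih =>
    intro e F hF h0
    obtain ⟨ψ, hψ, F2, h2, e2, rfl⟩ := step (k + 1) e F hF h0
    obtain ⟨F3, h3, rfl⟩ := ih (e + 3) F2 h2 e2
    exact ⟨C ψ * l0 ^ (k + 1) + cc * F3, add_mem (Fm_pow (W_top _ hψ)) (Fm_c (Fm_top _ h3)),
      by ring⟩

theorem et_mul0 {k e : ℕ} {d : ℤ} {F : AA} (hF : F ∈ Fm l0 P0 k e d) :
    et * F ∈ Fm l0 P0 (k + 1) (e + 3) (d - 3) := Fm_et addSh_P0 ze_mem0 th0_mem hF

theorem et_mul1 {k e : ℕ} {d : ℤ} {F : AA} (hF : F ∈ Fm l1 P1' k e d) :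
    et * F ∈ Fm l1 P1' (k + 1) (e + 3) (d - 3) := by
  rw [et_eq]
  exact Fm_et addSh_P1 ze_mem1 th1_mem hF

/-- The splitting property. -/
def Split (k e : ℕ) (d : ℤ) : Prop :=
  ∀ F ∈ Fm l0 PT k e 0, ∃ F0 ∈ Fm l0 P0 k e d, ∃ F1 ∈ Fm l1 P1' k e d, F = F0 + F1

theorem W1_mono {e : ℕ} {d : ℤ} (hd : -1 ≤ d) {φ : BB} (h : φ ∈ W e (P1' (-1))) :
    φ ∈ W e (P1' d) := W_mono le_rfl (fun _ h => le_trans h hd) h

theorem split_zero (e : ℕ) {d : ℤ} (hd : -1 ≤ d) : Split 0 e d := by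
  intro F hF
  obtain ⟨φ, hφ, rfl⟩ := Fm_zero hF
  obtain ⟨φ0, h0, φ1, h1, rfl⟩ := W_split hφ
  refine ⟨C φ0 * l0 ^ 0, Fm_pow h0, C φ1 * l1 ^ 0, Fm_pow (W1_mono (by simpa using hd) h1), by simp⟩

theorem split_succ {k e : ℕ} {d : ℤ} (hd : -1 ≤ d) (h : Split k (e + 3) (d - 3)) :
    Split (k + 1) e d := by
  intro F hF
  obtain ⟨φ, hφ, F', hF', rfl⟩ := Fm_succ hF
  obtain ⟨φ0, h0, φ1, h1, rfl⟩ := W_split hφ
  obtain ⟨G, hG, hdiff⟩ := pow_diff k
  have hm : F' + C φ1 * G ∈ Fm l0 PT k (e + 3) 0 := by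
    refine add_mem (Fm_top _ hF') ?_
    rw [add_comm e 3]
    exact Fm_top _ (Fm_C addSh_PT (W_top 0 h1) hG)
  obtain ⟨F0, k0, F1, k1, he⟩ := h _ hm
  refine ⟨C φ0 * l0 ^ (k + 1) + cc * F0, add_mem (Fm_pow h0) (Fm_c k0),
    C φ1 * l1 ^ (k + 1) + cc * F1, add_mem (Fm_pow (W1_mono (by omega) h1)) (Fm_c k1), ?_⟩
  rw [map_add]
  linear_combination C φ1 * hdiff + cc * he

theorem split_et {k e : ℕ} {d : ℤ} (he : 6 ≤ e) (hd : 2 ≤ d) (h : Split k e d) :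
    Split (k + 1) (e + 3) (d - 3) := by
  intro F hF
  obtain ⟨φ0, h0, φ1, h1, hφ⟩ := W_split (ev1_mem hF)
  obtain ⟨Φ0, k0, e0⟩ := lift addSh_P0 ev1_l0 bez0 (k + 1) (e + 3) (d - 3) (by omega) φ0 h0
  obtain ⟨Φ1, k1, e1⟩ := lift addSh_P1 ev1_l1 bez1 (k + 1) (e + 3) (d - 3) (by omega) φ1
    (W1_mono (by omega) h1)
  obtain ⟨F', hF', hh⟩ := div_et k e (F - Φ0 - Φ1)
    (Fsub (Fsub hF (Fm_top _ k0)) (Fm_l1 k1)) (by rw [map_sub, map_sub, e0, e1, hφ]; ring)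
  obtain ⟨G0, g0, G1, g1, rfl⟩ := h F' hF'
  refine ⟨Φ0 + et * G0, add_mem k0 (et_mul0 g0), Φ1 + et * G1, add_mem k1 (et_mul1 g1), ?_⟩
  linear_combination hh

theorem split_all (k : ℕ) {e : ℕ} {d : ℤ} (he : 6 ≤ e) (hd : 2 ≤ d) : Split k e d := by
  induction k using Nat.twoStepInduction with
  | zero => exact split_zero e (by omega)
  | one => exact split_succ (by omega) (split_zero _ (by omega))
  | more k ih _ => exact split_succ (by omega) (split_et he hd ih)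

theorem exists_ev2 (k : ℕ) (i : ℕ) (j : ℤ) (hi : i ≤ 9) (h0 : 0 ≤ j)
    (h1 : j ≤ 9 + 6 * (k + 1 : ℕ)) :
    ∃ F, F ∈ Fm l0 P0 (k + 1) 9 9 ∧ F ∈ Fm l1 P1' (k + 1) 9 9 ∧ ev2 F = mon i j := by
  obtain ⟨G, hG, hdiff⟩ := pow_diff k
  have hm : C (mon i j) * G ∈ Fm l0 PT k (9 + 3) 0 :=
    Fm_top _ (Fm_C (e' := 9) (d' := 0) addSh_PT (mon_mem hi trivial) hG)
  obtain ⟨F0, k0, F1, k1, he⟩ := split_all k (d := 9 - 3) (by omega) (by omega) _ hm
  refine ⟨C (mon i j) * l0 ^ (k + 1) - cc * F0, Fsub (Fm_pow (mon_mem hi h0)) (Fm_c k0), ?_,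
    by simp⟩
  have : C (mon i j) * l0 ^ (k + 1) - cc * F0 = C (mon i j) * l1 ^ (k + 1) + cc * F1 := by
    linear_combination C (mon i j) * hdiff + cc * he
  rw [this]
  exact add_mem (Fm_pow (mon_mem hi h1)) (Fm_c k1)

theorem exists_ev1 (k : ℕ) (i : ℕ) (j : ℤ) (hi : i ≤ 6 * (k + 1) + 9) (h0 : 0 ≤ j)
    (h1 : j ≤ 9) :
    ∃ F, F ∈ Fm l0 P0 (k + 1) 9 9 ∧ F ∈ Fm l1 P1' (k + 1) 9 9 ∧ ev1 F = mon i j := by
  obtain ⟨Φ0, k0, e0⟩ := lift addSh_P0 ev1_l0 bez0 (k + 1) 9 9 le_rfl _ (mon_mem hi h0)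
  obtain ⟨Φ1, k1, e1⟩ := lift addSh_P1 ev1_l1 bez1 (k + 1) 9 9 le_rfl _ (mon_mem hi h1)
  obtain ⟨F', hF', hh⟩ := div_et k 6 (Φ0 - Φ1) (Fsub (Fm_top _ k0) (Fm_l1 k1))
    (by rw [map_sub, e0, e1, sub_self])
  obtain ⟨G0, g0, G1, g1, rfl⟩ := split_all k (d := 12) le_rfl (by omega) F' hF'
  have a0 := et_mul0 g0
  have a1 := et_mul1 g1
  norm_num at a0 a1
  refine ⟨Φ0 - et * G0, Fsub k0 a0, ?_, by rw [map_sub, map_mul, ev1_et, e0]; ring⟩
  have : Φ0 - et * G0 = Φ1 + et * G1 := by linear_combination hh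
  rw [this]
  exact add_mem k1 a1

end Vale.Agent.P296
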