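import Vale.Agent.P296.Cech
import Vale.Agent.P296.Defs

/-!
Sections of `Sym^k G (e, d)` as functions on the affine cone.
-/

namespace Vale.Agent.P296

open MvPolynomial (C)

/-- Homogeneous coordinate vectors. -/
abbrev V2 : Type := Fin 2 → ℂ

/-- The numerator of the extension cocycle. -/
noncomputable def KK (X Y : V2) : ℂ := bi 3 7 cK (X 0) (X 1) (Y 0) (Y 1)
/-- The extension cocycle. -/
noncomputable def kap (X Y : V2) : ℂ := KK X Y / (Y 0 * Y 1) ^ 8
/-- The equation of `Z`. -/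
noncomputable def zet (X Y : V2) : ℂ := bi 3 3 cZ (X 0) (X 1) (Y 0) (Y 1)
/-- The interpolation forms. -/
noncomputable def SS (b : Fin 2) (X Y : V2) : ℂ :=
  bi 6 2 (if b = 0 then cS0 else cS1) (X 0) (X 1) (Y 0) (Y 1)
/-- The gluing functions. -/
noncomputable def the (b : Fin 2) (X Y : V2) : ℂ := SS b X Y / Y b ^ 8

@[simp] theorem hom_self (a : Fin 2) (z : ℂ) : hom a z a = 1 := by simp [hom]
@[simp] theorem hom01 (z : ℂ) : hom 0 z 1 = z := by simp [hom]
@[simp] theorem hom10 (z : ℂ) : hom 1 z 0 = z := by simp [hom]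

theorem diff_hom (a i : Fin 2) : Differentiable ℂ fun z => hom a z i := by
  unfold hom
  split_ifs <;> fun_prop

theorem eq_smul_hom (b : Fin 2) (Y : V2) (h : Y b ≠ 0) : ∃ v, Y = Y b • hom b v := by
  fin_cases b
  · refine ⟨Y 1 / Y 0, funext fun i => ?_⟩
    simp only [Fin.zero_eta] at h ⊢
    fin_cases i
    · simp
    · simp; field_simp
  · refine ⟨Y 0 / Y 1, funext fun i => ?_⟩
    simp only [Fin.mk_one] at h ⊢
    fin_cases i
    · simp; field_simp
    · simp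

theorem diff_bi {E : Type*} [NormedAddCommGroup E] [NormedSpace ℂ E] (p q : ℕ) (c : ℕ → ℕ → ℤ)
    {f0 f1 g0 g1 : E → ℂ} (h0 : Differentiable ℂ f0) (h1 : Differentiable ℂ f1)
    (k0 : Differentiable ℂ g0) (k1 : Differentiable ℂ g1) :
    Differentiable ℂ fun x => bi p q c (f0 x) (f1 x) (g0 x) (g1 x) := by
  unfold bi
  fun_prop

theorem KK_smul (s t : ℂ) (X Y : V2) : KK (s • X) (t • Y) = s ^ 3 * t ^ 7 * KK X Y :=
  bi_smul _ _ _ _ _ _ _ _ _
theorem zet_smul (s t : ℂ) (X Y : V2) : zet (s • X) (t • Y) = s ^ 3 * t ^ 3 * zet X Y :=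
  bi_smul _ _ _ _ _ _ _ _ _
theorem SS_smul (b : Fin 2) (s t : ℂ) (X Y : V2) :
    SS b (s • X) (t • Y) = s ^ 6 * t ^ 2 * SS b X Y := bi_smul _ _ _ _ _ _ _ _ _

theorem kap_smul (s : ℂ) {t : ℂ} (ht : t ≠ 0) (X Y : V2) :
    kap (s • X) (t • Y) = s ^ 3 * (t ^ 9)⁻¹ * kap X Y := by
  rw [kap, kap, KK_smul]
  simp only [Pi.smul_apply, smul_eq_mul]
  by_cases h : (Y 0 * Y 1) = 0
  · have : t * Y 0 * (t * Y 1) = 0 := by linear_combination t ^ 2 * h
    simp [h, this]
  · have h0 : Y 0 ≠ 0 := left_ne_zero_of_mul h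
    have h1 : Y 1 ≠ 0 := right_ne_zero_of_mul h
    field_simp

theorem the_smul (b : Fin 2) (s : ℂ) {t : ℂ} (ht : t ≠ 0) (X Y : V2) (hY : Y b ≠ 0) :
    the b (s • X) (t • Y) = s ^ 6 * (t ^ 6)⁻¹ * the b X Y := by
  rw [the, the, SS_smul]
  simp only [Pi.smul_apply, smul_eq_mul]
  field_simp

theorem the_sub (X Y : V2) (h0 : Y 0 ≠ 0) (h1 : Y 1 ≠ 0) :
    the 0 X Y - kap X Y * zet X Y = the 1 X Y := by
  have := idK (X 0) (X 1) (Y 0) (Y 1)
  simp only [the, kap, SS, KK, zet, if_true, one_ne_zero, if_false]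
  field_simp
  linear_combination this

theorem ext_ne_zero {g h : ℂ → ℂ} (hg : Continuous g) (hh : Continuous h)
    (e : ∀ x, x ≠ 0 → g x = h x) (x : ℂ) : g x = h x :=
  congrFun (Continuous.ext_on (dense_compl_singleton (0 : ℂ)) hg hh fun y hy => e y hy) x

/-- A function on the half `Y b ≠ 0` of the cone. -/
structure Half (b : Fin 2) (k : ℕ) (e d : ℤ) (f : V2 → V2 → ℂ → ℂ → ℂ) : Prop where
  sc : ∀ s t : ℂ, s ≠ 0 → t ≠ 0 → ∀ X Y c l, f (s • X) (t • Y) c l =
    s ^ e * t ^ d * f X Y (s ^ 3 * (t ^ 3)⁻¹ * c) (t ^ 6 * l)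
  hg : ∀ X Y c l a, f X Y (a * c) (a * l) = a ^ k * f X Y c l
  df : Differentiable ℂ fun x : V2 × ℂ × ℂ × ℂ => f x.1 (hom b x.2.1) x.2.2.1 x.2.2.2

/-- A section of `Sym^k G (e, d)`. -/
structure Cone (k : ℕ) (e d : ℤ) (f : Fin 2 → V2 → V2 → ℂ → ℂ → ℂ) : Prop where
  half : ∀ b, Half b k e d (f b)
  gl : ∀ X Y c l, Y 0 ≠ 0 → Y 1 ≠ 0 → f 0 X Y c l = f 1 X Y c (l - kap X Y * c)

theorem Half.cont {b k e d f} (h : Half b k e d f) {Y : V2} (hY : Y b ≠ 0) :
    Continuous fun x : V2 × ℂ × ℂ => f x.1 Y x.2.1 x.2.2 := by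
  obtain ⟨v, hv⟩ := eq_smul_hom b Y hY
  have : (fun x : V2 × ℂ × ℂ => f x.1 Y x.2.1 x.2.2) = fun x => 1 ^ e * Y b ^ d *
      f x.1 (hom b v) (1 ^ 3 * (Y b ^ 3)⁻¹ * x.2.1) (Y b ^ 6 * x.2.2) := by
    funext x
    rw [← h.sc 1 (Y b) one_ne_zero hY, one_smul, ← hv]
  rw [this]
  exact continuous_const.mul (h.df.continuous.comp (f := fun x : V2 × ℂ × ℂ =>
    (x.1, v, 1 ^ 3 * (Y b ^ 3)⁻¹ * x.2.1, Y b ^ 6 * x.2.2)) (by fun_prop))

theorem Half.mul {b k e d f k' e' d' f'} (h : Half b k e d f) (h' : Half b k' e' d' f') :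
    Half b (k + k') (e + e') (d + d') fun X Y c l => f X Y c l * f' X Y c l where
  sc s t hs ht X Y c l := by
    rw [h.sc s t hs ht, h'.sc s t hs ht, zpow_add₀ hs, zpow_add₀ ht]; ring
  hg X Y c l a := by rw [h.hg, h'.hg]; ring
  df := h.df.mul h'.df

theorem Cone.mul {k e d f k' e' d' f'} (h : Cone k e d f) (h' : Cone k' e' d' f') :
    Cone (k + k') (e + e') (d + d') fun b X Y c l => f b X Y c l * f' b X Y c l where
  half b := (h.half b).mul (h'.half b)
  gl X Y c l h0 h1 := by rw [h.gl X Y c l h0 h1, h'.gl X Y c l h0 h1]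

theorem cone_one : Cone 0 0 0 fun _ _ _ _ _ => 1 where
  half _ := ⟨by simp, by simp, by fun_prop⟩
  gl := by simp

theorem Cone.pow {k e d f} (h : Cone k e d f) (n : ℕ) :
    Cone (n * k) (n * e) (n * d) fun b X Y c l => f b X Y c l ^ n := by
  induction n with
  | zero => simpa using cone_one
  | succ n ih =>
    have := ih.mul h
    simp only [← pow_succ] at this
    convert this using 1 <;> push_cast <;> ring

theorem cone_X (a : Fin 2) : Cone 0 1 0 fun _ X _ _ _ => X a where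
  half _ := ⟨by simp, by simp, by fun_prop⟩
  gl := by simp

theorem cone_Y (a : Fin 2) : Cone 0 0 1 fun _ _ Y _ _ => Y a where
  half b := ⟨by simp, by simp, (diff_hom b a).comp (by fun_prop)⟩
  gl := by simp

theorem cone_c : Cone 1 (-3) 3 fun _ _ _ c _ => c where
  half _ := ⟨fun s t hs ht X Y c l => by
    rw [zpow_neg, zpow_ofNat, zpow_ofNat]; field_simp, by simp, by fun_prop⟩
  gl := by simp

theorem diff_cone_bi (b : Fin 2) (p q : ℕ) (c : ℕ → ℕ → ℤ) :
    Differentiable ℂ fun x : V2 × ℂ × ℂ × ℂ =>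
      bi p q c (x.1 0) (x.1 1) (hom b x.2.1 0) (hom b x.2.1 1) :=
  diff_bi p q c (by fun_prop) (by fun_prop) ((diff_hom b 0).comp (by fun_prop))
    ((diff_hom b 1).comp (by fun_prop))

theorem cone_et : Cone 1 3 (-3) fun b X Y c l => zet X Y * l - the b X Y * c where
  half b := by
    refine ⟨fun s t hs ht X Y c l => ?_, fun X Y c l a => by ring, ?_⟩
    · rw [zet_smul, the, the, SS_smul, zpow_neg, zpow_ofNat, zpow_ofNat]
      simp only [Pi.smul_apply, smul_eq_mul]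
      by_cases h : Y b = 0
      · simp only [h, mul_zero, ne_eq, OfNat.ofNat_ne_zero, not_false_eq_true, zero_pow, div_zero]
        field_simp
        ring
      · field_simp
    · simp only [the, hom_self, one_pow, div_one]
      exact ((diff_cone_bi b _ _ _).mul (by fun_prop)).sub ((diff_cone_bi b _ _ _).mul (by fun_prop))
  gl X Y c l h0 h1 := by
    rw [← the_sub X Y h0 h1]; ring

theorem cone_L (b' : Fin 2) : Cone 1 0 3 fun b X Y c l =>
    Y b' ^ 9 * l + (((b : ℕ) : ℂ) - (b' : ℕ)) * Y b' * KK X Y / Y b ^ 8 * c where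
  half b := by
    refine ⟨fun s t hs ht X Y c l => ?_, fun X Y c l a => by ring, ?_⟩
    · rw [KK_smul, zpow_zero, zpow_ofNat]
      simp only [Pi.smul_apply, smul_eq_mul]
      by_cases h : Y b = 0
      · simp only [h, mul_zero, ne_eq, OfNat.ofNat_ne_zero, not_false_eq_true, zero_pow, div_zero]
        ring
      · field_simp
    · simp only [hom_self, one_pow, div_one]
      have h1 : Differentiable ℂ fun x : V2 × ℂ × ℂ × ℂ => hom b x.2.1 b' :=
        (diff_hom b b').comp (by fun_prop)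
      exact ((h1.pow 9).mul (by fun_prop)).add
        (((h1.const_mul _).mul (diff_cone_bi b _ _ _)).mul (by fun_prop))
  gl X Y c l h0 h1 := by
    fin_cases b'
    · simp [kap]; field_simp; ring
    · simp [kap]; field_simp; ring

/-- Evaluation of coefficients. -/
noncomputable def evp (x : ℂ) (y : ℂˣ) : BB →+* ℂ :=
  Polynomial.eval₂RingHom (LaurentPolynomial.eval₂ (RingHom.id ℂ) y) x

/-- Evaluation of forms. -/
noncomputable def evA (x : ℂ) (y : ℂˣ) (c l : ℂ) : AA →+* ℂ :=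
  MvPolynomial.eval₂Hom (evp x y) ![c, l]

theorem evp_mon (x : ℂ) (y : ℂˣ) (i : ℕ) (j : ℤ) : evp x y (mon i j) = x ^ i * (y : ℂ) ^ j := by
  simp [evp, mon]
  ring

theorem evp_bi (x : ℂ) (y : ℂˣ) (p q : ℕ) (c : ℕ → ℕ → ℤ) :
    evp x y (bi p q c 1 lam 1 mu) = bi p q c 1 x 1 y := by
  rw [map_bi]
  simp [evp, lam, mu]

@[simp] theorem evA_C (x : ℂ) (y : ℂˣ) (c l : ℂ) (φ : BB) : evA x y c l (C φ) = evp x y φ := by
  simp [evA]
@[simp] theorem evA_cc (x : ℂ) (y : ℂˣ) (c l : ℂ) : evA x y c l cc = c := by simp [evA, cc]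
@[simp] theorem evA_l0 (x : ℂ) (y : ℂˣ) (c l : ℂ) : evA x y c l l0 = l := by simp [evA, l0]

theorem evA_l1 (x : ℂ) (y : ℂˣ) (c l : ℂ) :
    evA x y c l l1 = l - kap (hom 0 x) (hom 0 y) * c := by
  simp only [l1, map_sub, map_mul, evA_C, evA_cc, evA_l0, ka, evp_bi, evp_mon, kap, KK, hom_self,
    hom01]
  rw [zpow_neg, zpow_ofNat]
  simp [div_eq_mul_inv]

theorem evA_smul (x : ℂ) (y : ℂˣ) (c l a : ℂ) (F : AA) :
    evA x y c l (a • F) = a * evA x y c l F := by
  rw [← one_mul F, ← smul_mul_assoc, ← map_one (C : BB →+* AA), ← C_smul, map_mul, evA_C,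
    Algebra.smul_def]
  simp [evp, Polynomial.algebraMap_apply, LaurentPolynomial.algebraMap_apply]

theorem evA_aeval (x : ℂ) (y : ℂˣ) (p q : BB) (F : AA) :
    evA x y (evp x y p) (evp x y q) F = evp x y (MvPolynomial.aeval ![p, q] F) := by
  induction F using MvPolynomial.induction_on with
  | C a => simp
  | add a b ha hb => simp only [map_add, ha, hb]
  | mul_X a i ha =>
    simp only [map_mul, ha]
    fin_cases i <;> simp [evA]

theorem half_of_Fm (b : Fin 2) {l : AA} {P : ℤ → ℤ → Prop}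
    (hP : ∀ D j, P D j → Differentiable ℂ fun v => hom b v 0 ^ (D - j) * hom b v 1 ^ j)
    {k e : ℕ} {d : ℤ} {F : AA} (hF : F ∈ Fm l P k e d) :
    ∃ f, Half b k e d f ∧ ∀ x (y : ℂˣ) c l', f (hom 0 x) (hom 0 y) c (evA x y c l' l) =
      evA x y c l' F := by
  induction hF using Submodule.span_induction with
  | mem φ hφ =>
    obtain ⟨r, s, i, j, h1, h2, h3, rfl⟩ := hφ
    refine ⟨fun X Y c l => X 0 ^ (e + 3 * r - i) * X 1 ^ i *
      (Y 0 ^ (d - 3 * r + 6 * s - j) * Y 1 ^ j) * c ^ r * l ^ s, ⟨?_, ?_, ?_⟩, ?_⟩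
    · intro σ t hs ht X Y c l
      simp only [Pi.smul_apply, smul_eq_mul, mul_pow, mul_zpow]
      have e1 : σ ^ (e + 3 * r - i) * σ ^ i = σ ^ (e : ℤ) * (σ ^ 3) ^ r := by
        rw [← pow_add, zpow_natCast, ← pow_mul, ← pow_add]; congr 1; omega
      have e2 : t ^ (d - 3 * r + 6 * s - j) * t ^ j = t ^ d * (t ^ 3)⁻¹ ^ r * (t ^ 6) ^ s := by
        rw [← zpow_add₀ ht, inv_pow, ← pow_mul, ← pow_mul, ← zpow_natCast, ← zpow_natCast,
          ← zpow_neg, ← zpow_add₀ ht, ← zpow_add₀ ht]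
        congr 1
        push_cast
        ring
      linear_combination (X 0 ^ (e + 3 * r - i) * X 1 ^ i *
        (Y 0 ^ (d - 3 * r + 6 * s - j) * Y 1 ^ j) * c ^ r * l ^ s) *
        ((t ^ (d - 3 * r + 6 * s - j) * t ^ j) * e1 + (σ ^ (e : ℤ) * (σ ^ 3) ^ r) * e2)
    · intro X Y c l a
      rw [← h1]
      ring
    · have := (hP _ _ h3).comp (f := fun x : V2 × ℂ × ℂ × ℂ => x.2.1) (by fun_prop)
      exact (((by fun_prop : Differentiable ℂ fun x : V2 × ℂ × ℂ × ℂ =>
        x.1 0 ^ (e + 3 * r - i) * x.1 1 ^ i).mul this).mul (by fun_prop)).mul (by fun_prop)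
    · intro x y c l'
      simp [evp_mon]
  | zero => exact ⟨fun _ _ _ _ => 0, ⟨by simp, by simp, by fun_prop⟩, by simp⟩
  | add a b _ _ ha hb =>
    obtain ⟨f, hf, ef⟩ := ha
    obtain ⟨g, hg, eg⟩ := hb
    refine ⟨fun X Y c l => f X Y c l + g X Y c l, ⟨?_, ?_, hf.df.add hg.df⟩, ?_⟩
    · intro s t hs ht X Y c l
      rw [hf.sc s t hs ht, hg.sc s t hs ht]; ring
    · intro X Y c l a
      rw [hf.hg, hg.hg]; ring
    · intro x y c l'
      rw [map_add, ← ef, ← eg]
  | smul a b _ hb =>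
    obtain ⟨f, hf, ef⟩ := hb
    refine ⟨fun X Y c l => a * f X Y c l, ⟨?_, ?_, hf.df.const_mul a⟩, ?_⟩
    · intro s t hs ht X Y c l
      rw [hf.sc s t hs ht]; ring
    · intro X Y c l a
      rw [hf.hg]; ring
    · intro x y c l'
      rw [evA_smul, ← ef]

theorem cone_of_Fm {k e : ℕ} {d : ℤ} {F : AA} (h0 : F ∈ Fm l0 P0 k e d)
    (h1 : F ∈ Fm l1 P1' k e d) :
    ∃ f, Cone k e d f ∧ ∀ x (y : ℂˣ) c l, f 0 (hom 0 x) (hom 0 y) c l = evA x y c l F := by
  obtain ⟨f0, hf0, e0⟩ := half_of_Fm 0 (fun D j hj => by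
    obtain ⟨n, rfl⟩ := Int.eq_ofNat_of_zero_le hj
    simp only [hom_self, one_zpow, one_mul, hom01, zpow_natCast]
    fun_prop) h0
  obtain ⟨f1, hf1, e1⟩ := half_of_Fm 1 (fun D j hj => by
    obtain ⟨n, hn⟩ := Int.eq_ofNat_of_zero_le (sub_nonneg.mpr hj)
    simp only [hn, hom_self, one_zpow, mul_one, hom10, zpow_natCast]
    fun_prop) h1
  simp only [evA_l0] at e0
  simp only [evA_l1] at e1
  refine ⟨![f0, f1], ⟨fun b => by fin_cases b <;> assumption, ?_⟩, e0⟩
  intro X Y c l hY0 hY1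
  change f0 X Y c l = f1 X Y c _
  have key : ∀ X : V2, X 0 ≠ 0 → f0 X Y c l = f1 X Y c (l - kap X Y * c) := by
    intro X hX
    obtain ⟨u, hu⟩ := eq_smul_hom 0 X hX
    obtain ⟨v, hv⟩ := eq_smul_hom 0 Y hY0
    have hv0 : v ≠ 0 := by
      rintro rfl
      exact hY1 (by rw [hv]; simp)
    generalize X 0 = s at hX hu
    generalize Y 0 = t at hY0 hv
    subst hu hv
    rw [hf0.sc s t hX hY0, hf1.sc s t hX hY0, kap_smul s hY0]
    have a0 := e0 u (Units.mk0 v hv0) (s ^ 3 * (t ^ 3)⁻¹ * c) (t ^ 6 * l)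
    have a1 := e1 u (Units.mk0 v hv0) (s ^ 3 * (t ^ 3)⁻¹ * c) (t ^ 6 * l)
    rw [Units.val_mk0] at a0 a1
    rw [a0, ← a1]
    congr 2
    field_simp
  have hc : Continuous fun z : ℂ => (fun i => if i = 0 then z else X 1 : V2) := by
    refine continuous_pi fun i => ?_
    split_ifs <;> fun_prop
  have hk : Continuous fun X : V2 => kap X Y :=
    (diff_bi 3 7 cK (E := V2) (by fun_prop) (by fun_prop) (by fun_prop)
      (by fun_prop)).continuous.div_const _
  have := ext_ne_zero (g := fun z => f0 (fun i => if i = 0 then z else X 1) Y c l)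
    (h := fun z => f1 (fun i => if i = 0 then z else X 1) Y c
      (l - kap (fun i => if i = 0 then z else X 1) Y * c))
    ((hf0.cont hY0).comp (f := fun z : ℂ => ((fun i => if i = 0 then z else X 1 : V2), c, l))
      (hc.prodMk continuous_const))
    ((hf1.cont hY1).comp (f := fun z : ℂ => ((fun i => if i = 0 then z else X 1 : V2), c,
      l - kap (fun i => if i = 0 then z else X 1) Y * c))
      (hc.prodMk (continuous_const.prodMk (continuous_const.sub
        ((hk.comp hc).mul continuous_const)))))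
    (fun z hz => key _ (by simpa using hz)) (X 0)
  have e : (fun i => if i = 0 then X 0 else X 1 : V2) = X := by
    funext i; fin_cases i <;> simp
  simpa only [e] using this

theorem hom_ne {a : Fin 2} {u : ℂ} (hu : u ≠ 0) (i : Fin 2) : hom a u i ≠ 0 := by
  unfold hom
  split_ifs
  · exact one_ne_zero
  · exact hu

theorem cont_hom (a : Fin 2) : Continuous (hom a) :=
  continuous_pi fun i => (diff_hom a i).continuous

theorem ext_chart {g : ℂ → ℂ → ℂ} {c : ℂ} (hg : Continuous fun x : ℂ × ℂ => g x.1 x.2)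
    (e : ∀ u v, u ≠ 0 → v ≠ 0 → g u v = c) (u v : ℂ) : g u v = c := by
  have h1 : ∀ v, v ≠ 0 → g u v = c := fun v hv =>
    ext_ne_zero (g := fun u => g u v) (h := fun _ => c)
      (hg.comp (f := fun u : ℂ => (u, v)) (by fun_prop)) continuous_const
      (fun u hu => e u v hu hv) u
  exact ext_ne_zero (g := fun v => g u v) (h := fun _ => c)
    (hg.comp (f := fun v : ℂ => (u, v)) (by fun_prop)) continuous_const h1 v

theorem hom0_pow (a : Fin 2) (x : ℂ) (n : ℕ) : hom 0 x a ^ n = x ^ (n * (a : ℕ)) := by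
  fin_cases a <;> simp

theorem exists_cone2 (k : ℕ) (a b : Fin 2) : ∃ f, Cone (k + 1) 9 9 f ∧
    ∀ u v, f b (hom a u) (hom b v) 0 1 = 1 := by
  obtain ⟨F, h0, h1, hF⟩ := exists_ev2 k (9 * a) (((9 + 6 * (k + 1)) * (b : ℕ) : ℕ) : ℤ)
    (by omega) (by positivity) (by fin_cases b <;> simp; positivity)
  obtain ⟨f, hf, ef⟩ := cone_of_Fm h0 h1
  refine ⟨f, hf, ?_⟩
  have key : ∀ X Y : V2, X 0 ≠ 0 → Y 0 ≠ 0 → Y 1 ≠ 0 →
      f b X Y 0 1 = X a ^ 9 * Y b ^ (9 + 6 * (k + 1)) := by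
    intro X Y hX hY0 hY1
    have e0 : f b X Y 0 1 = f 0 X Y 0 1 := by
      fin_cases b
      · rfl
      · simpa using (hf.gl X Y 0 1 hY0 hY1).symm
    obtain ⟨u, hu⟩ := eq_smul_hom 0 X hX
    obtain ⟨v, hv⟩ := eq_smul_hom 0 Y hY0
    have hv0 : v ≠ 0 := by
      rintro rfl
      exact hY1 (by rw [hv]; simp)
    generalize X 0 = s at hX hu
    generalize Y 0 = t at hY0 hv
    subst hu hv
    have a0 := ef u (Units.mk0 v hv0) 0 1
    have a1 := evA_aeval u (Units.mk0 v hv0) 0 1 F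
    rw [map_zero, map_one] at a1
    rw [a1, Units.val_mk0] at a0
    have a2 := (hf.half 0).hg (hom 0 u) (hom 0 v) 0 1 (t ^ 6)
    rw [e0, (hf.half 0).sc s t hX hY0, mul_zero, ← mul_zero (t ^ 6), a2, a0]
    change _ * (_ * evp _ _ (ev2 F)) = _
    rw [hF, evp_mon, Units.val_mk0]
    simp only [Pi.smul_apply, smul_eq_mul, mul_pow, hom0_pow, zpow_natCast, zpow_ofNat]
    ring
  refine ext_chart ((hf.half b).df.continuous.comp (f := fun x : ℂ × ℂ => (hom a x.1, x.2, 0, 1))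
    (((cont_hom a).comp continuous_fst).prodMk (by fun_prop))) fun u v hu hv => ?_
  rw [key _ _ (hom_ne hu _) (hom_ne hv _) (hom_ne hv _)]
  simp

theorem exists_cone1 (k : ℕ) (a b : Fin 2) : ∃ f, Cone (k + 1) 9 9 f ∧
    ∀ u v, f b (hom a u) (hom b v) (zet (hom a u) (hom b v)) (the b (hom a u) (hom b v)) = 1 := by
  obtain ⟨F, h0, h1, hF⟩ := exists_ev1 k ((6 * (k + 1) + 9) * a) ((9 * (b : ℕ) : ℕ) : ℤ)
    (by fin_cases a <;> simp) (by positivity) (by omega)
  obtain ⟨f, hf, ef⟩ := cone_of_Fm h0 h1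
  refine ⟨f, hf, ?_⟩
  have key : ∀ X Y : V2, X 0 ≠ 0 → Y 0 ≠ 0 → Y 1 ≠ 0 →
      f b X Y (zet X Y) (the b X Y) = X a ^ (6 * (k + 1) + 9) * Y b ^ 9 := by
    intro X Y hX hY0 hY1
    have e0 : f b X Y (zet X Y) (the b X Y) = f 0 X Y (zet X Y) (the 0 X Y) := by
      fin_cases b
      · rfl
      · rw [hf.gl X Y _ _ hY0 hY1, the_sub X Y hY0 hY1]
        rfl
    obtain ⟨u, hu⟩ := eq_smul_hom 0 X hX
    obtain ⟨v, hv⟩ := eq_smul_hom 0 Y hY0
    have hv0 : v ≠ 0 := by
      rintro rfl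
      exact hY1 (by rw [hv]; simp)
    generalize X 0 = s at hX hu
    generalize Y 0 = t at hY0 hv
    subst hu hv
    have a0 := ef u (Units.mk0 v hv0) (zet (hom 0 u) (hom 0 v)) (the 0 (hom 0 u) (hom 0 v))
    have a1 := evA_aeval u (Units.mk0 v hv0) ze th0 F
    have b1 : evp u (Units.mk0 v hv0) ze = zet (hom 0 u) (hom 0 v) := by
      simp [ze, evp_bi, zet]
    have b2 : evp u (Units.mk0 v hv0) th0 = the 0 (hom 0 u) (hom 0 v) := by
      simp [th0, evp_bi, the, SS]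
    rw [b1, b2] at a1
    rw [a1, Units.val_mk0] at a0
    have a2 := (hf.half 0).hg (hom 0 u) (hom 0 v) (zet (hom 0 u) (hom 0 v))
      (the 0 (hom 0 u) (hom 0 v)) (s ^ 6)
    have c1 : s ^ 3 * (t ^ 3)⁻¹ * zet (s • hom 0 u) (t • hom 0 v)
        = s ^ 6 * zet (hom 0 u) (hom 0 v) := by
      rw [zet_smul]; field_simp
    have c2 : t ^ 6 * the 0 (s • hom 0 u) (t • hom 0 v) = s ^ 6 * the 0 (hom 0 u) (hom 0 v) := by
      rw [the_smul 0 s hY0 _ _ (by simp)]; field_simp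
    rw [e0, (hf.half 0).sc s t hX hY0, c1, c2, a2, a0]
    change _ * (_ * evp _ _ (ev1 F)) = _
    rw [hF, evp_mon, Units.val_mk0]
    simp only [Pi.smul_apply, smul_eq_mul, mul_pow, hom0_pow, zpow_natCast, zpow_ofNat]
    ring
  have hb : ∀ p q c, Continuous fun x : ℂ × ℂ =>
      bi p q c (hom a x.1 0) (hom a x.1 1) (hom b x.2 0) (hom b x.2 1) := fun p q c =>
    (diff_bi p q c ((diff_hom a 0).comp differentiable_fst) ((diff_hom a 1).comp differentiable_fst)
      ((diff_hom b 0).comp differentiable_snd) ((diff_hom b 1).comp differentiable_snd)).continuous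
  refine ext_chart ((hf.half b).df.continuous.comp (f := fun x : ℂ × ℂ => (hom a x.1, x.2,
    zet (hom a x.1) (hom b x.2), the b (hom a x.1) (hom b x.2)))
    (((cont_hom a).comp continuous_fst).prodMk (continuous_snd.prodMk ((hb _ _ _).prodMk ?_))))
    fun u v hu hv => ?_
  · simp only [the, hom_self, one_pow, div_one]
    exact hb _ _ _
  · rw [key _ _ (hom_ne hu _) (hom_ne hv _) (hom_ne hv _)]
    simp

theorem bezout (a b : Fin 2) (X Y : V2) : ∃ B, SS b X Y * SS a Y X + zet X Y * B =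
    (nn : ℂ) ^ 2 * (X a ^ 8 * Y b ^ 8) := by
  fin_cases a <;> fin_cases b
  · exact ⟨_, idB00 _ _ _ _⟩
  · exact ⟨_, idB01 _ _ _ _⟩
  · exact ⟨_, idB10 _ _ _ _⟩
  · exact ⟨_, idB11 _ _ _ _⟩

/-- Base point freeness of `O(k) ⊗ O(9, 9)` for all even `k > 0`. -/
theorem exists_bpf (n : ℕ) : ∃ f : Fin 3 × Fin 2 × Fin 2 → Fin 2 → V2 → V2 → ℂ → ℂ → ℂ,
    (∀ i, Cone (2 * n + 1 + 1) 9 9 (f i)) ∧ ∀ a b u v c l, (c ≠ 0 ∨ l ≠ 0) →
      ∃ i, f i b (hom a u) (hom b v) c l ≠ 0 := by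
  choose f1 h1 e1 using exists_cone1 (2 * n + 1)
  choose f2 h2 e2 using exists_cone2 (2 * n + 1)
  have h0 : ∀ a b' : Fin 2, Cone (2 * n + 1 + 1) 9 9 fun b X Y c l =>
      X a ^ 9 * Y b' ^ 9 * (c * (zet X Y * l - the b X Y * c)) ^ (n + 1) := fun a b' => by
    have := (((cone_X a).pow 9).mul ((cone_Y b').pow 9)).mul ((cone_c.mul cone_et).pow (n + 1))
    convert this using 1
    · ring
    · simp
    · simp
  refine ⟨fun i => ![fun b X Y c l => X i.2.1 ^ 9 * Y i.2.2 ^ 9 *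
    (c * (zet X Y * l - the b X Y * c)) ^ (n + 1), f1 i.2.1 i.2.2, f2 i.2.1 i.2.2] i.1, ?_, ?_⟩
  · rintro ⟨i, a, b⟩
    fin_cases i
    · exact h0 a b
    · exact h1 a b
    · exact h2 a b
  · intro a b u v c l hcl
    by_cases hc : c = 0
    · subst hc
      have hl : l ≠ 0 := by simpa using hcl
      refine ⟨(2, a, b), ?_⟩
      change f2 a b b _ _ _ _ ≠ 0
      have := ((h2 a b).half b).hg (hom a u) (hom b v) 0 1 l
      rw [mul_zero, mul_one, e2] at this
      rw [this]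
      simpa using hl
    · by_cases he : zet (hom a u) (hom b v) * l - the b (hom a u) (hom b v) * c = 0
      · refine ⟨(1, a, b), ?_⟩
        change f1 a b b _ _ _ _ ≠ 0
        obtain ⟨B, hB⟩ := bezout a b (hom a u) (hom b v)
        have ht : the b (hom a u) (hom b v) = SS b (hom a u) (hom b v) := by simp [the]
        simp only [hom_self, one_pow, mul_one] at hB
        set τ := (SS a (hom b v) (hom a u) * l + B * c) / (nn : ℂ) ^ 2 with hτ
        have hn := nn_ne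
        have c1 : τ * zet (hom a u) (hom b v) = c := by
          rw [hτ]; field_simp
          rw [ht] at he
          linear_combination SS a (hom b v) (hom a u) * he + c * hB
        have c2 : τ * the b (hom a u) (hom b v) = l := by
          rw [hτ, ht]; field_simp
          rw [ht] at he
          linear_combination - B * he + l * hB
        have := ((h1 a b).half b).hg (hom a u) (hom b v) (zet (hom a u) (hom b v))
          (the b (hom a u) (hom b v)) τ
        rw [c1, c2, e1] at this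
        rw [this, mul_one]
        exact pow_ne_zero _ fun h => hc (by rw [← c1, h, zero_mul])
      · refine ⟨(0, a, b), ?_⟩
        change _ * _ * _ ≠ 0
        simp [hc, he]

end Vale.Agent.P296
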