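import Vale.Agent.P296.Poly

/-!
The covering lemma on the circle of radius `√6` and the choice of parameters.
-/

namespace Vale.Agent.P296

open Filter Topology

/-- The normalised gluing function in affine coordinates. -/
noncomputable def th (l μ : ℂ) : ℂ := bi 6 2 cS0 1 l 1 μ / (nn : ℂ)

/-- The equation of `Z` in affine coordinates. -/
noncomputable def zz (l μ : ℂ) : ℂ := bi 3 3 cZ 1 l 1 μ

theorem cover_aux {l D N : ℂ} {a b : ℝ} (hN : N = -l * (starRingEnd ℂ) D)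
    (hD : D ≠ 0) (hz : bi 3 3 cZ 1 l D N = 0) (hS : ‖bi 6 2 cS0 1 l D N‖ = a * ‖D‖ ^ 8)
    (ha : 0 ≤ a) (hb : ‖D‖ ^ 2 ≤ b) (hab : a * b ^ 3 ≤ 9331200) :
    ∃ μ : ℂ, ‖μ‖ = ‖l‖ ∧ zz l μ = 0 ∧ ‖th l μ‖ ≤ 9 / 10 := by
  have hD' : 0 < ‖D‖ := norm_pos_iff.mpr hD
  have e1 := bi_smul 3 3 cZ 1 D⁻¹ 1 l D N
  have e2 := bi_smul 6 2 cS0 1 D⁻¹ 1 l D N
  rw [one_mul, one_mul, inv_mul_cancel₀ hD] at e1 e2
  refine ⟨D⁻¹ * N, ?_, ?_, ?_⟩
  · rw [hN, norm_mul, norm_mul, norm_inv, norm_neg, Complex.norm_conj]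
    field_simp
  · rw [zz, e1, hz, mul_zero]
  · have h6 : ‖D‖ ^ 6 ≤ b ^ 3 := by
      rw [show ‖D‖ ^ 6 = (‖D‖ ^ 2) ^ 3 by ring]
      gcongr
    have hn : ‖(nn : ℂ)‖ = 10546875 := by simp [nn]
    rw [th, e2, norm_div, norm_mul, hS, hn, one_pow, one_mul, norm_pow, norm_inv,
      show ‖D‖⁻¹ ^ 2 * (a * ‖D‖ ^ 8) = a * ‖D‖ ^ 6 by field_simp]
    have := mul_le_mul_of_nonneg_left h6 ha
    linarith

theorem cover {l : ℂ} (hl : ‖l‖ ^ 2 = 6) :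
    ∃ μ : ℂ, ‖μ‖ = ‖l‖ ∧ zz l μ = 0 ∧ ‖th l μ‖ ≤ 9 / 10 := by
  have hl' : l.re ^ 2 + l.im ^ 2 = 6 := by
    rw [← hl, ← Complex.normSq_eq_norm_sq, Complex.normSq_apply]; ring
  have hc : l * (starRingEnd ℂ) l = 6 := by
    rw [Complex.mul_conj, Complex.normSq_eq_norm_sq, hl]; norm_num
  by_cases hx : l.re ≤ -5 / 6
  · refine cover_aux (D := l + 9) (N := -9 * l - 6) (a := 25) (b := 72) ?_ ?_ (zeta_Z1 l) ?_
      (by norm_num) ?_ (by norm_num)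
    · rw [map_add, show (starRingEnd ℂ) 9 = 9 from map_ofNat _ 9]
      linear_combination hc
    · intro h
      have h1 := congrArg Complex.re h
      simp at h1
      nlinarith [sq_nonneg l.im]
    · rw [S0_Z1]; simp
    · rw [← Complex.normSq_eq_norm_sq, Complex.normSq_apply]
      simp
      nlinarith
  · obtain ⟨b, hb, hby⟩ : ∃ b : ℝ, b ^ 2 = 75 / 4 ∧ 0 ≤ b * l.im := by
      have hs : Real.sqrt (75 / 4) ^ 2 = 75 / 4 := Real.sq_sqrt (by norm_num)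
      have h0 := Real.sqrt_nonneg (75 / 4)
      rcases le_total 0 l.im with h | h
      · exact ⟨_, hs, mul_nonneg h0 h⟩
      · exact ⟨-_, by rw [neg_sq, hs], mul_nonneg_of_nonpos_of_nonpos (neg_nonpos.mpr h0) h⟩
    obtain ⟨c, hc1, hc2⟩ : ∃ c : ℂ, c.re = 7 / 2 ∧ c.im = b := ⟨⟨7 / 2, b⟩, rfl, rfl⟩
    have hcc : c ^ 2 - 7 * c + 31 = 0 := by
      apply Complex.ext
      · simp [pow_two, hc1, hc2]; nlinarith
      · simp [pow_two, hc1, hc2]; ring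
    have hz := zeta_Z2 l c hcc
    refine cover_aux (a := 675) (b := 24) ?_ ?_ hz ?_ (by norm_num) ?_ (by norm_num)
    · have : (starRingEnd ℂ) c = 7 - c := by
        apply Complex.ext
        · simp [hc1]; norm_num
        · simp
      rw [map_sub, this]
      linear_combination hc
    · intro h
      have h1 := congrArg Complex.re h
      simp [hc1] at h1
      nlinarith [sq_nonneg l.im]
    · rw [S0_Z2 l c hcc]; simp
    · rw [← Complex.normSq_eq_norm_sq, Complex.normSq_apply]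
      simp only [Complex.sub_re, Complex.sub_im, hc1, hc2]
      by_contra hlt
      rw [not_le] at hlt hx
      have h1 : 2 * (b * l.im) < 13 - 7 * l.re := by nlinarith
      have h2 : (2 * (b * l.im)) ^ 2 = 75 * (6 - l.re ^ 2) := by
        rw [mul_pow, mul_pow, hb]; nlinarith
      have h3 : (2 * (b * l.im)) ^ 2 < (13 - 7 * l.re) ^ 2 := by
        apply pow_lt_pow_left₀ h1 (by positivity) two_ne_zero
      nlinarith [mul_nonneg (show 0 ≤ l.re + 5 / 6 by linarith)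
        (show 0 ≤ 13 - 7 * l.re by linarith)]

theorem cont_th : Continuous fun x : ℂ × ℂ => th x.1 x.2 := by
  unfold th bi
  fun_prop

theorem exists_params {th : ℂ → ℂ → ℂ} (cont_th : Continuous fun x : ℂ × ℂ => th x.1 x.2)
    (r : ℝ) (hr : 1 ≤ r) : ∃ (m : ℕ) (Θ δ : ℝ), 3 ≤ m ∧ 0 < δ ∧ δ ≤ 1 ∧
    (∀ l μ0 μ : ℂ, ‖l‖ = r → ‖μ0‖ = r → ‖μ - μ0‖ ≤ 1 → ‖th l μ‖ ≤ Θ) ∧
    (∀ l μ0 μ : ℂ, ‖l‖ = r → ‖μ0‖ = r → ‖th l μ0‖ ≤ 9 / 10 → ‖μ - μ0‖ ≤ δ →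
      ‖th l μ‖ ≤ 47 / 50) ∧
    (21 / 20 * (47 / 50) ^ 2 * ((r + δ) / r) ^ 14 +
      21 * δ ^ 2 * ((2 + 2 * Θ ^ 2) * ((r + 1) / r) ^ 14)) *
      Real.exp (5 / m * (Real.log (2 * r) - Real.log δ)) < 1 := by
  have hK : IsCompact (Metric.closedBall (0 : ℂ × ℂ) (r + 1)) := isCompact_closedBall _ _
  have hmem : ∀ l μ0 μ : ℂ, ‖l‖ = r → ‖μ0‖ = r → ‖μ - μ0‖ ≤ 1 →
      (l, μ) ∈ Metric.closedBall (0 : ℂ × ℂ) (r + 1) := by
    intro l μ0 μ h1 h2 h3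
    have := norm_add_le (μ - μ0) μ0
    rw [sub_add_cancel] at this
    rw [mem_closedBall_zero_iff, Prod.norm_mk, max_le_iff]
    constructor <;> linarith
  obtain ⟨Θ, hΘ⟩ := hK.exists_bound_of_continuousOn cont_th.continuousOn
  obtain ⟨δ0, hδ0, hu⟩ := Metric.uniformContinuousOn_iff_le.mp
    (hK.uniformContinuousOn_of_continuous cont_th.continuousOn) (1 / 25) (by norm_num)
  have hF : ContinuousAt (fun δ : ℝ => 21 / 20 * (47 / 50) ^ 2 * ((r + δ) / r) ^ 14 +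
      21 * δ ^ 2 * ((2 + 2 * Θ ^ 2) * ((r + 1) / r) ^ 14)) 0 := by fun_prop
  have h1 : ∀ᶠ δ : ℝ in 𝓝 0, 21 / 20 * (47 / 50) ^ 2 * ((r + δ) / r) ^ 14 +
      21 * δ ^ 2 * ((2 + 2 * Θ ^ 2) * ((r + 1) / r) ^ 14) < 24 / 25 := by
    refine hF.eventually (gt_mem_nhds ?_)
    simp only [add_zero, div_self (show r ≠ 0 by linarith)]
    norm_num
  have h2 : ∀ᶠ δ : ℝ in 𝓝 0, δ ≤ min δ0 1 := ge_mem_nhds (lt_min hδ0 one_pos)
  have h3 : ∀ᶠ δ : ℝ in 𝓝[>] 0, 0 < δ := self_mem_nhdsWithin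
  obtain ⟨δ, ⟨a1, a2⟩, a3⟩ := (((h1.and h2).filter_mono nhdsWithin_le_nhds).and h3).exists
  have hE : Tendsto (fun m : ℕ => Real.exp (5 / m * (Real.log (2 * r) - Real.log δ))) atTop
      (𝓝 1) := by
    have := (tendsto_const_div_atTop_nhds_zero_nat (5 : ℝ)).mul_const
      (Real.log (2 * r) - Real.log δ)
    rw [zero_mul] at this
    have h4 := (Real.continuous_exp.tendsto 0).comp this
    rw [Real.exp_zero] at h4
    exact h4
  obtain ⟨m, b1, b2⟩ := ((hE.eventually (gt_mem_nhds (a := 26 / 25) (by norm_num))).and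
    (eventually_ge_atTop 3)).exists
  have a4 : δ ≤ δ0 := a2.trans (min_le_left _ _)
  have a5 : δ ≤ 1 := a2.trans (min_le_right _ _)
  refine ⟨m, Θ, δ, b2, a3, a5, fun l μ0 μ h1 h2 h3 => hΘ (l, μ) (hmem l μ0 μ h1 h2 h3),
    fun l μ0 μ h1 h2 h3 h4 => ?_, ?_⟩
  · have := hu (l, μ) (hmem l μ0 μ h1 h2 (h4.trans a5)) (l, μ0)
      (hmem l μ0 μ0 h1 h2 (by simp)) (by
        rw [Prod.dist_eq, dist_self, dist_eq_norm]
        exact max_le hδ0.le (h4.trans a4))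
    rw [dist_eq_norm] at this
    have h5 := norm_sub_norm_le (th l μ) (th l μ0)
    linarith
  · have := mul_lt_mul'' a1 b1 (by positivity) (Real.exp_pos _).le
    linarith

end Vale.Agent.P296
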