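import Vale.Agent.P296.Bundle

/-!
The bundles `E m` carry smooth Hermitian metrics.
-/

namespace Vale.Agent.P296

open Matrix
open scoped ComplexOrder ContDiff

/-- Three twisted sections generating the dual bundle. -/
noncomputable def PP (m : ℕ) (α : Fin 2 × Fin 2) (p : ℂ × ℂ) : Matrix (Fin 3) (Fin 2) ℂ :=
  !![hom α.2 (p.2 ^ m) 0 ^ 8, -((α.2 : ℕ) : ℂ) * KK (hom α.1 (p.1 ^ m)) (hom α.2 (p.2 ^ m));
    hom α.2 (p.2 ^ m) 1 ^ 8, (1 - ((α.2 : ℕ) : ℂ)) * KK (hom α.1 (p.1 ^ m)) (hom α.2 (p.2 ^ m));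
    0, 1]

/-- The weight `1 + |z|²`. -/
noncomputable def wt (z : ℂ) : ℂ := 1 + z * star z

theorem wt_pos (z : ℂ) : 0 < wt z := add_pos_of_pos_of_nonneg one_pos (mul_star_self_nonneg z)

theorem wt_trans {a a' : Fin 2} {u u' s : ℂ} (h : hom a' u' = s • hom a u) :
    wt u' = s * star s * wt u := by
  have : ∀ (a : Fin 2) (u : ℂ), wt u = hom a u 0 * star (hom a u 0) +
      hom a u 1 * star (hom a u 1) := by
    intro a u
    fin_cases a <;> simp [wt, add_comm]
  rw [this a u, this a' u', h]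
  simp only [Pi.smul_apply, smul_eq_mul, star_mul']
  ring

/-- The weights. -/
noncomputable def DD (m : ℕ) (p : ℂ × ℂ) : Fin 3 → ℂ :=
  ![(wt p.1 ^ (3 * m + 1) * wt p.2 ^ (5 * m + 1))⁻¹, (wt p.1 ^ (3 * m + 1) * wt p.2 ^ (5 * m + 1))⁻¹,
    (wt p.1 * wt p.2 ^ (6 * m + 1))⁻¹]

theorem PP_trans (m : ℕ) {α β : Fin 2 × Fin 2} {p q : ℂ × ℂ} {s t : ℂ} (hs : s ≠ 0) (ht : t ≠ 0)
    (e1 : hom β.1 q.1 = s • hom α.1 p.1) (e2 : hom β.2 q.2 = t • hom α.2 p.2) :
    PP m α p * gm m α β p = diagonal ![(s * (s ^ m) ^ 3 * (t * (t ^ m) ^ 5))⁻¹,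
      (s * (s ^ m) ^ 3 * (t * (t ^ m) ^ 5))⁻¹, (s * (t * (t ^ m) ^ 6))⁻¹] * PP m β q := by
  have e3 := smul_hom_pow e1 m
  have e4 := smul_hom_pow e2 m
  have n1 := smul_hom_one e1
  have n2 := smul_hom_one e2
  have n3 := smul_hom_one e3
  have n4 := smul_hom_one e4
  have hτ := pow_ne_zero m ht
  have hσ := pow_ne_zero m hs
  have n5 := hom_self α.2 (p.2 ^ m)
  rw [gm, PP, PP, e3, e4, KK_smul]
  generalize s ^ m = σ at *
  generalize t ^ m = τ at *
  generalize hom α.1 (p.1 ^ m) = X at *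
  generalize hom α.2 (p.2 ^ m) = Y at *
  rw [mul_comm, ← eq_div_iff (by assumption)] at n1 n2 n3 n4
  ext i j
  rw [diagonal_mul]
  fin_cases i <;> fin_cases j <;>
    simp [GG, Matrix.mul_apply, Fin.sum_univ_two, n1, n2, n3, n4, kap]
  · field_simp
  · generalize α.2 = b at *
    generalize β.2 = b' at *
    fin_cases b <;> fin_cases b' <;> simp_all <;> field_simp
    ring
  · field_simp
  · generalize α.2 = b at *
    generalize β.2 = b' at *
    fin_cases b <;> fin_cases b' <;> simp_all <;> field_simp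
    ring
  · field_simp

theorem cd_hom (a i : Fin 2) (m : ℕ) : ContDiff ℝ ∞ fun z : ℂ => hom a (z ^ m) i := by
  unfold hom
  split_ifs <;> fun_prop

theorem cd_PP (m : ℕ) (α : Fin 2 × Fin 2) (i j) : ContDiff ℝ ∞ fun p => PP m α p i j := by
  have h1 : ∀ i, ContDiff ℝ ∞ fun p : ℂ × ℂ => hom α.1 (p.1 ^ m) i := fun i =>
    (cd_hom _ i m).comp contDiff_fst
  have h2 : ∀ i, ContDiff ℝ ∞ fun p : ℂ × ℂ => hom α.2 (p.2 ^ m) i := fun i =>
    (cd_hom _ i m).comp contDiff_snd
  have h3 : ContDiff ℝ ∞ fun p : ℂ × ℂ => KK (hom α.1 (p.1 ^ m)) (hom α.2 (p.2 ^ m)) := by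
    have := h1 0
    have := h1 1
    have := h2 0
    have := h2 1
    unfold KK bi
    fun_prop
  fin_cases i <;> fin_cases j
  · exact (h2 0).pow 8
  · exact contDiff_const.mul h3
  · exact (h2 1).pow 8
  · exact contDiff_const.mul h3
  · exact contDiff_const
  · exact contDiff_const

theorem cd_star {f : ℂ × ℂ → ℂ} (hf : ContDiff ℝ ∞ f) : ContDiff ℝ ∞ fun p => star (f p) :=
  Complex.conjCLE.contDiff.comp hf

theorem cd_DD (m : ℕ) (i) : ContDiff ℝ ∞ fun p => DD m p i := by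
  have h1 : ContDiff ℝ ∞ fun p : ℂ × ℂ => wt p.1 :=
    contDiff_const.add (contDiff_fst.mul (cd_star contDiff_fst))
  have h2 : ContDiff ℝ ∞ fun p : ℂ × ℂ => wt p.2 :=
    contDiff_const.add (contDiff_snd.mul (cd_star contDiff_snd))
  have h3 := ((h1.pow (3 * m + 1)).mul (h2.pow (5 * m + 1))).inv fun p =>
    mul_ne_zero (pow_ne_zero _ (wt_pos _).ne') (pow_ne_zero _ (wt_pos _).ne')
  fin_cases i
  · exact h3
  · exact h3
  · exact (h1.mul (h2.pow (6 * m + 1))).inv fun p =>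
      mul_ne_zero (wt_pos _).ne' (pow_ne_zero _ (wt_pos _).ne')

/-- An explicit smooth Hermitian metric on `E m`. -/
noncomputable def metricEE (m : ℕ) : Metric (EE m) where
  h α p := (PP m α p)ᴴ * diagonal (DD m p) * PP m α p
  smooth α i j := by
    simp only [Matrix.mul_apply, conjTranspose_apply, diagonal_apply]
    refine ContDiff.sum fun k _ => (ContDiff.sum fun l _ => (cd_star (cd_PP m α l i)).mul ?_).mul
      (cd_PP m α k j)
    split_ifs
    · exact cd_DD m l
    · exact contDiff_const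
  pos α p := by
    refine PosDef.conjTranspose_mul_mul_same (posDef_diagonal_iff.mpr fun i => ?_) ?_
    · have h1 := wt_pos p.1
      have h2 := wt_pos p.2
      fin_cases i <;> simp only [DD] <;> simp <;> positivity
    · refine (injective_iff_map_eq_zero (mulVecLin _)).mpr fun v hv => ?_
      have h0 := congrFun hv 0
      have h1 := congrFun hv 1
      have h2 := congrFun hv 2
      simp [PP, dotProduct, Fin.sum_univ_two, mulVec] at h0 h1 h2
      funext i
      obtain ⟨a, b⟩ := α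
      fin_cases i <;> fin_cases b <;> simp_all
  compat α β p q h := by
    obtain ⟨s, t, hs, ht, e1, e2⟩ := chart_eq_iff.mp h
    have := PP_trans m hs ht e1 e2
    rw [show (EE m).g = gm m from rfl, show (gm m α β p)ᴴ * ((PP m α p)ᴴ * diagonal (DD m p) *
      PP m α p) * gm m α β p = (PP m α p * gm m α β p)ᴴ * diagonal (DD m p) *
      (PP m α p * gm m α β p) by simp only [conjTranspose_mul, Matrix.mul_assoc], this,
      conjTranspose_mul, diagonal_conjTranspose, Matrix.mul_assoc, Matrix.mul_assoc,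
      Matrix.mul_assoc, ← Matrix.mul_assoc (diagonal _), diagonal_mul_diagonal,
      ← Matrix.mul_assoc (diagonal _), diagonal_mul_diagonal]
    congr 3
    funext i
    have h1 := (wt_pos p.1).ne'
    have h2 := (wt_pos p.2).ne'
    have hs' : (starRingEnd ℂ) s ≠ 0 := star_ne_zero.mpr hs
    have ht' : (starRingEnd ℂ) t ≠ 0 := star_ne_zero.mpr ht
    fin_cases i <;> simp [DD, wt_trans e1, wt_trans e2, mul_pow] <;> field_simp <;> ring

end Vale.Agent.P296
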