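import Vale.Agent.P296.Defs

/-!
The maximum principle for the dual of a Griffiths semipositive metric.
-/

namespace Vale.Agent.P296

open Matrix Filter Topology Complex
open scoped ComplexOrder ContDiff

theorem two_le_inf : (1 : WithTop ℕ∞) + 1 ≤ ∞ := by
  rw [one_add_one_eq_two]
  exact WithTop.coe_le_coe.mpr le_top

/-- Two-jets of functions of a real variable at `0`. -/
def J2 (g : ℝ → ℂ) (g1 g2 : ℂ) : Prop :=
  ∃ g' : ℝ → ℂ, (∀ᶠ t in 𝓝 0, HasDerivAt g (g' t) t) ∧ g' 0 = g1 ∧ HasDerivAt g' g2 0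

theorem J2.add {f g f1 f2 g1 g2} (hf : J2 f f1 f2) (hg : J2 g g1 g2) :
    J2 (fun t => f t + g t) (f1 + g1) (f2 + g2) := by
  obtain ⟨f', a1, a2, a3⟩ := hf
  obtain ⟨g', b1, b2, b3⟩ := hg
  exact ⟨fun t => f' t + g' t, (a1.and b1).mono fun t h => h.1.add h.2, by simp [a2, b2], a3.add b3⟩

theorem J2.mul {f g f1 f2 g1 g2} (hf : J2 f f1 f2) (hg : J2 g g1 g2) :
    J2 (fun t => f t * g t) (f1 * g 0 + f 0 * g1) (f2 * g 0 + 2 * (f1 * g1) + f 0 * g2) := by
  obtain ⟨f', a1, a2, a3⟩ := hf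
  obtain ⟨g', b1, b2, b3⟩ := hg
  refine ⟨fun t => f' t * g t + f t * g' t, (a1.and b1).mono fun t h => h.1.mul h.2,
    by simp [a2, b2], ?_⟩
  refine ((a3.mul b1.self_of_nhds).add (a1.self_of_nhds.mul b3)).congr_deriv ?_
  rw [a2, b2]
  ring

theorem J2.affine (a b : ℂ) : J2 (fun t => a + t * b) b 0 :=
  ⟨fun _ => b, Eventually.of_forall fun t => by
    simpa using ((hasDerivAt_id t).ofReal_comp.mul_const b).const_add a, rfl, hasDerivAt_const _ _⟩

theorem J2.sum {ι : Type} (S : Finset ι) {f : ι → ℝ → ℂ} {f1 f2 : ι → ℂ}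
    (h : ∀ i, J2 (f i) (f1 i) (f2 i)) :
    J2 (fun t => ∑ i ∈ S, f i t) (∑ i ∈ S, f1 i) (∑ i ∈ S, f2 i) := by
  classical
  induction S using Finset.induction_on with
  | empty => simpa using J2.affine 0 0
  | insert a S ha ih => simpa [Finset.sum_insert ha] using (h a).add ih

theorem J2.nonneg {g g1 g2} (h : J2 g g1 g2) (hm : IsLocalMin (fun t => (g t).re) 0) :
    0 ≤ g2.re := by
  obtain ⟨g', a1, -, a3⟩ := h
  have b1 : ∀ᶠ t in 𝓝 (0 : ℝ), HasDerivAt (fun t => (g t).re) (g' t).re t :=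
    a1.mono fun t ht => reCLM.hasFDerivAt.comp_hasDerivAt t ht
  have b2 : deriv (fun t => (g t).re) =ᶠ[𝓝 0] fun t => (g' t).re := b1.mono fun t ht => ht.deriv
  have b3 : deriv (deriv fun t => (g t).re) 0 = g2.re := by
    rw [b2.deriv_eq]
    exact (reCLM.hasFDerivAt.comp_hasDerivAt 0 a3).deriv
  by_contra hneg
  have hmax := isLocalMax_of_deriv_deriv_neg (f := fun t => (g t).re) (x₀ := 0)
    (by rw [b3]; exact not_le.mp hneg) hm.deriv_eq_zero b1.self_of_nhds.continuousAt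
  have hc : (fun t => (g t).re) =ᶠ[𝓝 0] fun _ => (g 0).re :=
    (hmax.and hm).mono fun t ht => le_antisymm ht.1 ht.2
  rw [hc.deriv.deriv_eq] at b3
  simp only [deriv_const', deriv_const] at b3
  exact hneg b3.le

theorem J2.line {f : ℂ × ℂ → ℂ} (hf : ContDiff ℝ ∞ f) (p e : ℂ × ℂ) :
    J2 (fun t => f (p + t • e)) (fderiv ℝ f p e) (fderiv ℝ (fun q => fderiv ℝ f q e) p e) := by
  have hl : ∀ t : ℝ, HasDerivAt (fun t : ℝ => p + t • e) e t := fun t => by
    simpa using ((hasDerivAt_id t).smul_const e).const_add p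
  have hd : Differentiable ℝ f := hf.differentiable (by simp)
  have hd' : Differentiable ℝ fun q => fderiv ℝ f q e :=
    ((hf.fderiv_right (m := 1) two_le_inf).differentiable (by simp)).clm_apply
      (differentiable_const e)
  refine ⟨fun t => fderiv ℝ f (p + t • e) e, Eventually.of_forall fun t =>
    (hd _).hasFDerivAt.comp_hasDerivAt t (hl t), by simp, ?_⟩
  have := (hd' (p + (0 : ℝ) • e)).hasFDerivAt.comp_hasDerivAt (0 : ℝ) (hl 0)
  rw [zero_smul, add_zero] at this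
  exact this

theorem J2.holo {F : ℂ → ℂ} {w : ℂ} (hF : AnalyticAt ℂ F w) (ε : ℂ) :
    J2 (fun t => F (w + t * ε)) (deriv F w * ε) (deriv (deriv F) w * ε * ε) := by
  have hl : ∀ t : ℝ, HasDerivAt (fun t : ℝ => w + t * ε) ε t := fun t => by
    simpa using ((hasDerivAt_id t).ofReal_comp.mul_const ε).const_add w
  have ht : Tendsto (fun t : ℝ => w + t * ε) (𝓝 0) (𝓝 w) := by
    simpa using (hl 0).continuousAt.tendsto
  refine ⟨fun t => deriv F (w + t * ε) * ε, (ht.eventually hF.eventually_analyticAt).mono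
    fun t h => h.differentiableAt.hasDerivAt.comp_of_eq t (hl t) rfl, by simp, ?_⟩
  have := (hF.deriv.differentiableAt.hasDerivAt.comp_of_eq (0 : ℝ) (hl 0) (by simp)).mul_const ε
  exact this

/-- The dual Hermitian form. -/
noncomputable def HH (M : Matrix (Fin 2) (Fin 2) ℂ) (η : Fin 2 → ℂ) : ℝ :=
  (η ⬝ᵥ (M⁻¹ *ᵥ star η)).re

theorem HH_smul (M : Matrix (Fin 2) (Fin 2) ℂ) (c : ℂ) (η : Fin 2 → ℂ) :
    HH M (c • η) = ‖c‖ ^ 2 * HH M η := by
  rw [HH, HH, star_smul, mulVec_smul, smul_dotProduct, dotProduct_smul, smul_smul, smul_eq_mul,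
    RCLike.star_def, Complex.mul_conj, Complex.re_ofReal_mul, Complex.normSq_eq_norm_sq]

theorem HH_pos {M : Matrix (Fin 2) (Fin 2) ℂ} (hM : M.PosDef) {η : Fin 2 → ℂ} (hη : η ≠ 0) :
    0 < HH M η := by
  have := hM.inv.dotProduct_mulVec_pos (x := star η) (by simpa using hη)
  rw [star_star] at this
  exact (Complex.pos_iff.mp this).1

theorem HH_nonneg {M : Matrix (Fin 2) (Fin 2) ℂ} (hM : M.PosDef) (η : Fin 2 → ℂ) :
    0 ≤ HH M η := by
  by_cases hη : η = 0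
  · simp [HH, hη]
  · exact (HH_pos hM hη).le

theorem HH_add_le {M : Matrix (Fin 2) (Fin 2) ℂ} (hM : M.PosDef) (a b : Fin 2 → ℂ) {t : ℝ}
    (ht : 0 < t) : HH M (a + b) ≤ (1 + t) * HH M a + (1 + t⁻¹) * HH M b := by
  have h := HH_nonneg hM ((t : ℂ) • a - b)
  have e : t * HH M (a + b) + HH M ((t : ℂ) • a - b) = t * (1 + t) * HH M a + (t + 1) * HH M b := by
    simp only [HH, star_add, star_sub, star_smul, mulVec_add, mulVec_sub, mulVec_smul,
      add_dotProduct, dotProduct_add, sub_dotProduct, dotProduct_sub, smul_dotProduct,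
      dotProduct_smul, smul_eq_mul, RCLike.star_def, conj_ofReal, add_re, sub_re, re_ofReal_mul]
    ring
  have : t * HH M (a + b) ≤ t * ((1 + t) * HH M a + (1 + t⁻¹) * HH M b) := by
    have e2 : t * ((1 + t) * HH M a + (1 + t⁻¹) * HH M b)
        = t * (1 + t) * HH M a + (t + 1) * HH M b := by field_simp
    linarith
  exact le_of_mul_le_mul_left this ht

theorem mul_inv_posDef {M : Matrix (Fin 2) (Fin 2) ℂ} (hM : M.PosDef) : M * M⁻¹ = 1 :=
  Matrix.mul_nonsing_inv _ ((Matrix.isUnit_iff_isUnit_det _).mp hM.isUnit)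

theorem HH_trans {M g g' : Matrix (Fin 2) (Fin 2) ℂ} (hM : M.PosDef) (hM' : (gᴴ * M * g).PosDef)
    (hg : g * g' = 1) (η : Fin 2 → ℂ) : HH (gᴴ * M * g) (η ᵥ* g) = HH M η := by
  have h1 : (gᴴ * M * g) *ᵥ (g' *ᵥ (M⁻¹ *ᵥ star η)) = star (η ᵥ* g) := by
    rw [star_vecMul, mulVec_mulVec, mulVec_mulVec, mul_assoc _ g, hg, mul_one, mul_assoc,
      mul_inv_posDef hM, mul_one]
  rw [HH, HH, ← h1, mulVec_mulVec, Matrix.nonsing_inv_mul _
    ((Matrix.isUnit_iff_isUnit_det _).mp hM'.isUnit), one_mulVec, ← dotProduct_mulVec,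
    mulVec_mulVec, hg, one_mulVec]

theorem amgm {M : Matrix (Fin 2) (Fin 2) ℂ} (hM : M.PosDef) (η v : Fin 2 → ℂ) :
    2 * (η ⬝ᵥ v).re ≤ HH M η + (star v ⬝ᵥ (M *ᵥ v)).re := by
  set u := M⁻¹ *ᵥ star η with hu
  have h1 : M *ᵥ u = star η := by rw [hu, mulVec_mulVec, mul_inv_posDef hM, one_mulVec]
  have h2 : star u ⬝ᵥ (M *ᵥ v) = η ⬝ᵥ v := by
    rw [dotProduct_mulVec, ← hM.isHermitian.eq, ← star_mulVec, h1, star_star]
  have h3 := (Complex.nonneg_iff.mp (hM.posSemidef.dotProduct_mulVec_nonneg (u - v))).1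
  rw [star_sub, mulVec_sub, sub_dotProduct, dotProduct_sub, dotProduct_sub, h1, h2,
    star_dotProduct_star, star_dotProduct_star] at h3
  simp only [sub_re, RCLike.star_def, conj_re] at h3
  rw [HH, ← hu]
  linarith

section Curv

variable {h : ℂ × ℂ → Matrix (Fin 2) (Fin 2) ℂ}

theorem inv_diff (hs : ∀ i j, ContDiff ℝ ∞ fun p => h p i j) (hp : ∀ p, (h p).PosDef) (i j) :
    Differentiable ℝ fun q => (h q)⁻¹ i j := by
  have hd : ∀ i j, Differentiable ℝ fun p => h p i j := fun i j =>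
    (hs i j).differentiable (by simp)
  have hdet : Differentiable ℝ fun q => ((h q).det)⁻¹ := by
    refine Differentiable.inv ?_ fun q =>
      ((Matrix.isUnit_iff_isUnit_det _).mp (hp q).isUnit).ne_zero
    simp only [det_fin_two]
    exact ((hd 0 0).mul (hd 1 1)).sub ((hd 0 1).mul (hd 1 0))
  simp only [Matrix.inv_def, Ring.inverse_eq_inv, Matrix.smul_apply, smul_eq_mul, adjugate_fin_two]
  refine hdet.mul ?_
  fin_cases i <;> fin_cases j
  · exact hd 1 1
  · exact (hd 0 1).neg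
  · exact (hd 1 0).neg
  · exact hd 0 0

theorem fd_diff {f : ℂ × ℂ → ℂ} (hf : ContDiff ℝ ∞ f) (e : ℂ × ℂ) :
    Differentiable ℝ fun q => fderiv ℝ f q e :=
  ((hf.fderiv_right (m := 1) two_le_inf).differentiable (by simp)).clm_apply
    (differentiable_const e)

theorem fd_symm {f : ℂ × ℂ → ℂ} (hf : ContDiff ℝ ∞ f) (p e e' : ℂ × ℂ) :
    fderiv ℝ (fun q => fderiv ℝ f q e) p e' = fderiv ℝ (fun q => fderiv ℝ f q e') p e := by
  have hd : DifferentiableAt ℝ (fderiv ℝ f) p :=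
    ((hf.fderiv_right (m := 1) two_le_inf).differentiable (by simp)) p
  rw [fderiv_clm_apply hd (differentiableAt_const _), fderiv_clm_apply hd (differentiableAt_const _)]
  simpa using (hf.contDiffAt.isSymmSndFDerivAt (x := p) (by simpa [one_add_one_eq_two] using two_le_inf)).eq e' e

theorem dz_diff (hs : ∀ i j, ContDiff ℝ ∞ fun p => h p i j) (ξ : ℂ × ℂ) (i j) :
    Differentiable ℝ fun q => dz ξ h q i j := by
  simp only [dz, of_apply, div_eq_mul_inv]
  exact ((fd_diff (hs i j) ξ).sub ((fd_diff (hs i j) _).const_mul I)).mul_const _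

theorem dzbar_dz (hs : ∀ i j, ContDiff ℝ ∞ fun p => h p i j) (ξ p : ℂ × ℂ) (i j) :
    4 * dzbar ξ (dz ξ h) p i j =
      fderiv ℝ (fun q => fderiv ℝ (fun q => h q i j) q ξ) p ξ +
      fderiv ℝ (fun q => fderiv ℝ (fun q => h q i j) q (I • ξ)) p (I • ξ) := by
  have h1 := (fd_diff (hs i j) ξ p).hasFDerivAt
  have h2 := (fd_diff (hs i j) (I • ξ) p).hasFDerivAt
  have h3 : fderiv ℝ (fun q => dz ξ h q i j) p = _ :=
    ((h1.sub (h2.const_mul I)).mul_const (2 : ℂ)⁻¹).fderiv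
  simp only [dzbar, of_apply]
  rw [h3]
  simp only [_root_.smul_apply, _root_.sub_apply, smul_eq_mul]
  rw [fd_symm (hs i j) p ξ (I • ξ)]
  linear_combination (-fderiv ℝ (fun q => fderiv ℝ (fun q => h q i j) q (I • ξ)) p (I • ξ)) *
    I_mul_I

theorem dzbar_mul {A B : ℂ × ℂ → Matrix (Fin 2) (Fin 2) ℂ}
    (hA : ∀ i j, Differentiable ℝ fun q => A q i j) (hB : ∀ i j, Differentiable ℝ fun q => B q i j)
    (ξ p : ℂ × ℂ) : dzbar ξ (fun q => A q * B q) p = dzbar ξ A p * B p + A p * dzbar ξ B p := by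
  ext i j
  have : fderiv ℝ (fun q => A q i 0 * B q 0 j + A q i 1 * B q 1 j) p = _ :=
    (((hA i 0 p).hasFDerivAt.mul (hB 0 j p).hasFDerivAt).add
      ((hA i 1 p).hasFDerivAt.mul (hB 1 j p).hasFDerivAt)).fderiv
  simp only [dzbar, of_apply, this, Matrix.add_apply, Matrix.mul_apply, Fin.sum_univ_two,
    _root_.add_apply, _root_.smul_apply, smul_eq_mul]
  ring

theorem curv_eq (hs : ∀ i j, ContDiff ℝ ∞ fun p => h p i j) (hp : ∀ p, (h p).PosDef)
    (ξ p : ℂ × ℂ) : h p * curv h p ξ =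
      dzbar ξ h p * ((h p)⁻¹ * dz ξ h p) - dzbar ξ (dz ξ h) p := by
  have hA : ∀ i j, Differentiable ℝ fun q => ((h q)⁻¹ * dz ξ h q) i j := fun i j => by
    simp only [Matrix.mul_apply, Fin.sum_univ_two]
    exact ((inv_diff hs hp i 0).mul (dz_diff hs ξ 0 j)).add
      ((inv_diff hs hp i 1).mul (dz_diff hs ξ 1 j))
  have := dzbar_mul (fun i j => (hs i j).differentiable (by simp)) hA ξ p
  have e : (fun q => h q * ((h q)⁻¹ * dz ξ h q)) = dz ξ h := by
    funext q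
    rw [← Matrix.mul_assoc, mul_inv_posDef (hp q), Matrix.one_mul]
  rw [e] at this
  rw [curv, this, Matrix.mul_neg]
  abel

theorem cont_HH (hs : ∀ i j, ContDiff ℝ ∞ fun p => h p i j) (hp : ∀ p, (h p).PosDef)
    {X : Type} [TopologicalSpace X] {γ : X → ℂ × ℂ} {s : X → Fin 2 → ℂ} {x : X}
    (hγ : ContinuousAt γ x) (hs' : ∀ i, ContinuousAt (fun w => s w i) x) :
    ContinuousAt (fun w => HH (h (γ w)) (s w)) x := by
  have hi : ∀ i j, ContinuousAt (fun w => (h (γ w))⁻¹ i j) x := fun i j =>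
    (inv_diff hs hp i j).continuous.continuousAt.comp hγ
  simp only [HH, dotProduct, mulVec, Fin.sum_univ_two, Pi.star_apply]
  exact continuous_re.continuousAt.comp
    (((hs' 0).mul (((hi 0 0).mul (hs' 0).star).add ((hi 0 1).mul (hs' 1).star))).add
      ((hs' 1).mul (((hi 1 0).mul (hs' 0).star).add ((hi 1 1).mul (hs' 1).star))))

theorem lagrange (w0 w : ℂ) :
    ‖1 + (starRingEnd ℂ) w0 * w‖ ^ 2 + ‖w - w0‖ ^ 2 = (1 + ‖w‖ ^ 2) * (1 + ‖w0‖ ^ 2) := by
  simp only [← Complex.normSq_eq_norm_sq, normSq_apply, add_re, add_im, mul_re, mul_im, one_re,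
    one_im, conj_re, conj_im, sub_re, sub_im]
  ring

theorem max_principle (hs : ∀ i j, ContDiff ℝ ∞ fun p => h p i j) (hp : ∀ p, (h p).PosDef)
    (ξ p0 : ℂ × ℂ) (hc : ∀ p v, 0 ≤ (star v ⬝ᵥ (h p *ᵥ (curv h p ξ *ᵥ v))).re)
    {s : ℂ → Fin 2 → ℂ} {w0 : ℂ} (hs' : ∀ i, AnalyticAt ℂ (fun w => s w i) w0) (h0 : s w0 ≠ 0) :
    ¬ IsLocalMax (fun w => HH (h (p0 + w • ξ)) (s w) * (1 + ‖w‖ ^ 2)) w0 := by
  intro hmax
  set p := p0 + w0 • ξ with hpdef
  set H0 := HH (h p) (s w0) with hH0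
  have hH : 0 < H0 := HH_pos (hp p) h0
  set ρ := 1 + ‖w0‖ ^ 2 with hρ
  have hρ0 : 0 < ρ := by positivity
  set c := H0 / (2 * ρ ^ 2) with hcdef
  have hc0 : 0 < c := by positivity
  set v0 := (h p)⁻¹ *ᵥ star (s w0) with hv0
  set v1 := -(((h p)⁻¹ * dz ξ h p) *ᵥ v0) with hv1
  let g : ℂ → ℂ := fun w => (1 + (starRingEnd ℂ) w0 * w) / ρ
  have hg0 : g w0 = 1 := by
    have : (ρ : ℂ) = 1 + (starRingEnd ℂ) w0 * w0 := by
      rw [hρ, Complex.conj_mul']
      push_cast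
      rfl
    simp only [g]
    rw [← this]
    exact div_self (by exact_mod_cast hρ0.ne')
  let F : ℂ → ℂ := fun w => (g w • s w) ⬝ᵥ (v0 + (w - w0) • v1)
  have hF : AnalyticAt ℂ F w0 := by
    have hg : AnalyticAt ℂ g w0 := by
      simp only [g, div_eq_mul_inv]
      fun_prop
    simp only [F, dotProduct, Fin.sum_univ_two, Pi.smul_apply, Pi.add_apply, smul_eq_mul]
    exact ((hg.mul (hs' 0)).mul (by fun_prop)).add ((hg.mul (hs' 1)).mul (by fun_prop))
  have hcont := cont_HH hs hp (γ := fun w => p0 + w • ξ) (x := w0) (by fun_prop)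
    fun i => (hs' i).continuousAt
  have hev : ∀ᶠ w in 𝓝 w0, -H0 ≤ (star (v0 + (w - w0) • v1) ⬝ᵥ
      (h (p0 + w • ξ) *ᵥ (v0 + (w - w0) • v1))).re - 2 * (F w).re - c * ‖w - w0‖ ^ 2 := by
    filter_upwards [hmax, hcont.eventually (lt_mem_nhds (half_lt_self hH))] with w h1 h2
    have h3 := amgm (hp (p0 + w • ξ)) (g w • s w) (v0 + (w - w0) • v1)
    rw [HH_smul] at h3
    have h4 : ‖g w‖ ^ 2 = ((1 + ‖w‖ ^ 2) * ρ - ‖w - w0‖ ^ 2) / ρ ^ 2 := by
      simp only [g, norm_div, div_pow, Complex.norm_real, Real.norm_eq_abs, sq_abs]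
      rw [← lagrange]
      ring
    set Hw := HH (h (p0 + w • ξ)) (s w)
    have h5 : ‖g w‖ ^ 2 * Hw ≤ H0 - c * ‖w - w0‖ ^ 2 := by
      rw [h4, hcdef, div_mul_eq_mul_div, div_le_iff₀ (by positivity)]
      have e : (H0 - H0 / (2 * ρ ^ 2) * ‖w - w0‖ ^ 2) * ρ ^ 2
          = H0 * ρ * ρ - H0 / 2 * ‖w - w0‖ ^ 2 := by field_simp
      rw [e]
      have h1' : Hw * (1 + ‖w‖ ^ 2) ≤ H0 * ρ := h1
      nlinarith [mul_le_mul_of_nonneg_right h1' hρ0.le,
        mul_le_mul_of_nonneg_right h2.le (sq_nonneg ‖w - w0‖)]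
    simp only [F]
    linarith
  have hhv : h p *ᵥ v0 = star (s w0) := by
    rw [hv0, mulVec_mulVec, mul_inv_posDef (hp p), one_mulVec]
  have key : ∀ ε : ℂ, ‖ε‖ = 1 → 0 ≤ ((∑ i, ∑ j,
      (star (v0 i) * fderiv ℝ (fun q => fderiv ℝ (fun q => h q i j) q (ε • ξ)) p (ε • ξ) * v0 j +
        2 * (star (ε * v1 i) * fderiv ℝ (fun q => h q i j) p (ε • ξ) * v0 j) +
        2 * (star (v0 i) * fderiv ℝ (fun q => h q i j) p (ε • ξ) * (ε * v1 j)) +
        2 * (star (ε * v1 i) * h p i j * (ε * v1 j)))) -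
      2 * (deriv (deriv F) w0 * ε * ε) - 2 * c).re := by
    intro ε hε
    have j1 := J2.sum Finset.univ fun i => J2.sum Finset.univ fun j =>
      ((J2.affine (star (v0 i)) (star (ε * v1 i))).mul (J2.line (hs i j) p (ε • ξ))).mul
        (J2.affine (v0 j) (ε * v1 j))
    have j2 := (J2.affine (-2) 0).mul (J2.holo hF ε)
    have j3 := (J2.affine 0 (-c)).mul (J2.affine 0 1)
    have ht : Tendsto (fun t : ℝ => w0 + t * ε) (𝓝 0) (𝓝 w0) := by
      have : Continuous fun t : ℝ => w0 + t * ε := by fun_prop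
      simpa using this.tendsto 0
    convert ((j1.add j2).add j3).nonneg ?_ using 2
    · simp only [Fin.sum_univ_two, ofReal_zero, zero_mul, add_zero, zero_smul]
      ring
    · have val : ∀ t : ℝ, ((∑ i, ∑ j, (star (v0 i) + t * star (ε * v1 i)) *
          h (p + t • ε • ξ) i j * (v0 j + t * (ε * v1 j))) + (-2 + t * 0) * F (w0 + t * ε) +
          (0 + t * -(c : ℂ)) * (0 + t * 1)).re = (star (v0 + (w0 + t * ε - w0) • v1) ⬝ᵥ
          (h (p0 + (w0 + t * ε) • ξ) *ᵥ (v0 + (w0 + t * ε - w0) • v1))).re -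
          2 * (F (w0 + t * ε)).re - c * ‖w0 + t * ε - w0‖ ^ 2 := by
        intro t
        have e1 : p0 + (w0 + t * ε) • ξ = p + t • ε • ξ := by
          rw [hpdef, add_smul, mul_smul, Complex.coe_smul, add_assoc]
        have e2 : ‖(t : ℂ) * ε‖ ^ 2 = t * t := by
          rw [norm_mul, hε, mul_one, Complex.norm_real, Real.norm_eq_abs, sq_abs, sq]
        rw [e1, add_sub_cancel_left, e2]
        have e3 : star (v0 + ((t : ℂ) * ε) • v1) ⬝ᵥ (h (p + t • ε • ξ) *ᵥ (v0 + ((t : ℂ) * ε) • v1))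
            = ∑ i, ∑ j, (star (v0 i) + t * star (ε * v1 i)) *
              h (p + t • ε • ξ) i j * (v0 j + t * (ε * v1 j)) := by
          simp only [dotProduct, mulVec, Fin.sum_univ_two, Pi.star_apply, Pi.add_apply,
            Pi.smul_apply, smul_eq_mul, star_add, star_mul', RCLike.star_def, conj_ofReal]
          ring
        rw [e3]
        simp
        ring
      filter_upwards [ht.eventually hev] with t h1
      rw [val t, val 0]
      have e0 : (star v0 ⬝ᵥ star (s w0)).re = H0 := by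
        rw [star_dotProduct_star, RCLike.star_def, conj_re]
        rfl
      have e1 : (F w0).re = H0 := by
        simp only [F, hg0, one_smul, sub_self, zero_smul, add_zero]
        rfl
      simp only [ofReal_zero, zero_mul, add_zero, sub_self, zero_smul, ← hpdef, hhv, e0, e1,
        norm_zero]
      linarith
  have k1 := key 1 (by simp)
  have k2 := key I (by simp)
  have hcv := hc p v0
  rw [mulVec_mulVec, curv_eq hs hp] at hcv
  have hv1' : h p *ᵥ v1 = -(dz ξ h p *ᵥ v0) := by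
    rw [hv1, mulVec_neg, mulVec_mulVec, ← Matrix.mul_assoc, mul_inv_posDef (hp p), Matrix.one_mul]
  have total : ((∑ i, ∑ j,
      (star (v0 i) * fderiv ℝ (fun q => fderiv ℝ (fun q => h q i j) q ((1 : ℂ) • ξ)) p
        ((1 : ℂ) • ξ) * v0 j +
        2 * (star (1 * v1 i) * fderiv ℝ (fun q => h q i j) p ((1 : ℂ) • ξ) * v0 j) +
        2 * (star (v0 i) * fderiv ℝ (fun q => h q i j) p ((1 : ℂ) • ξ) * (1 * v1 j)) +
        2 * (star (1 * v1 i) * h p i j * (1 * v1 j)))) -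
      2 * (deriv (deriv F) w0 * 1 * 1) - 2 * c) + ((∑ i, ∑ j,
      (star (v0 i) * fderiv ℝ (fun q => fderiv ℝ (fun q => h q i j) q (I • ξ)) p (I • ξ) * v0 j +
        2 * (star (I * v1 i) * fderiv ℝ (fun q => h q i j) p (I • ξ) * v0 j) +
        2 * (star (v0 i) * fderiv ℝ (fun q => h q i j) p (I • ξ) * (I * v1 j)) +
        2 * (star (I * v1 i) * h p i j * (I * v1 j)))) -
      2 * (deriv (deriv F) w0 * I * I) - 2 * c) =
      -4 * (star v0 ⬝ᵥ ((dzbar ξ h p * ((h p)⁻¹ * dz ξ h p) - dzbar ξ (dz ξ h) p) *ᵥ v0))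
        - 4 * c := by
    rw [sub_mulVec, ← mulVec_mulVec, ← neg_neg (((h p)⁻¹ * dz ξ h p) *ᵥ v0), ← hv1]
    have a0 := congrFun hv1' 0
    have a1 := congrFun hv1' 1
    have b := fun i j => dzbar_dz hs ξ p i j
    generalize dzbar ξ (dz ξ h) p = D2 at b ⊢
    simp only [one_smul, one_mul, mul_one, dotProduct, mulVec, Fin.sum_univ_two, Pi.star_apply,
      Pi.neg_apply, Pi.sub_apply, dz, dzbar, of_apply, star_mul', RCLike.star_def, conj_I] at a0 a1 ⊢
    linear_combination 4 * (starRingEnd ℂ) (v1 0) * a0 + 4 * (starRingEnd ℂ) (v1 1) * a1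
      - (starRingEnd ℂ) (v0 0) * v0 0 * b 0 0 - (starRingEnd ℂ) (v0 0) * v0 1 * b 0 1
      - (starRingEnd ℂ) (v0 1) * v0 0 * b 1 0 - (starRingEnd ℂ) (v0 1) * v0 1 * b 1 1
      - 2 * ((starRingEnd ℂ) (v1 0) * (h p 0 0 * v1 0 + h p 0 1 * v1 1) +
        (starRingEnd ℂ) (v1 1) * (h p 1 0 * v1 0 + h p 1 1 * v1 1) + deriv (deriv F) w0) * I_mul_I
  have := congrArg re total
  rw [add_re] at this
  simp only [sub_re, mul_re, neg_re, neg_im, re_ofNat, im_ofNat, ofReal_re, ofReal_im, zero_mul,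
    mul_zero, sub_zero, neg_zero] at this k1 k2
  linarith

end Curv

end Vale.Agent.P296
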