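import Mathlib

/-!
One-variable estimates: maximum principle, Bernstein-Walsh inequality and Schwarz lemma.
-/

namespace Vale.Agent.P296

open Filter Topology

/-- A family of squared norms satisfying the maximum principle. -/
structure NF (Q : ℂ → (Fin 2 → ℂ) → ℝ) : Prop where
  smul : ∀ w (c : ℂ) η, Q w (c • η) = ‖c‖ ^ 2 * Q w η
  nonneg : ∀ w η, 0 ≤ Q w η
  add_le : ∀ w a b (t : ℝ), 0 < t → Q w (a + b) ≤ (1 + t) * Q w a + (1 + t⁻¹) * Q w b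
  cont : ∀ s : ℂ → Fin 2 → ℂ, (∀ i, Continuous fun w => s w i) → Continuous fun w => Q w (s w)
  mp : ∀ (s : ℂ → Fin 2 → ℂ) w0, (∀ i, AnalyticAt ℂ (fun w => s w i) w0) → s w0 ≠ 0 →
    ¬ IsLocalMax (fun w => Q w (s w)) w0

variable {Q : ℂ → (Fin 2 → ℂ) → ℝ}

theorem NF.zero (hQ : NF Q) (w : ℂ) : Q w 0 = 0 := by
  simpa using hQ.smul w 0 0

theorem isCompact_lem {m : ℕ} (hm : 1 ≤ m) (μ : ℂ) (r : ℝ) :
    IsCompact {w : ℂ | ‖w ^ m - μ‖ ≤ r} := by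
  refine Metric.isCompact_of_isClosed_isBounded (isClosed_le (by fun_prop) continuous_const) ?_
  refine (Metric.isBounded_closedBall (x := (0 : ℂ)) (r := max 1 (r + ‖μ‖))).subset fun w hw => ?_
  simp only [Set.mem_setOf_eq, mem_closedBall_zero_iff] at hw ⊢
  by_cases h1 : ‖w‖ ≤ 1
  · exact le_max_of_le_left h1
  · refine le_max_of_le_right ?_
    calc ‖w‖ ≤ ‖w‖ ^ m := le_self_pow₀ (not_le.mp h1).le (by omega)
      _ = ‖(w ^ m - μ) + μ‖ := by rw [sub_add_cancel, norm_pow]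
      _ ≤ r + ‖μ‖ := (norm_add_le _ _).trans (by linarith)

theorem NF.inside (hQ : NF Q) {m : ℕ} (hm : 1 ≤ m) {μ : ℂ} {r B : ℝ} {s : ℂ → Fin 2 → ℂ}
    (hs : ∀ i, Differentiable ℂ fun w => s w i) (hB : 0 ≤ B)
    (hb : ∀ w, ‖w ^ m - μ‖ = r → Q w (s w) ≤ B) {w : ℂ} (hw : ‖w ^ m - μ‖ ≤ r) :
    Q w (s w) ≤ B := by
  obtain ⟨w1, h1, h2⟩ := (isCompact_lem hm μ r).exists_isMaxOn ⟨w, hw⟩
    (hQ.cont s fun i => (hs i).continuous).continuousOn
  refine le_trans (h2 hw) ?_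
  rcases (show ‖w1 ^ m - μ‖ ≤ r from h1).eq_or_lt with h | h
  · exact hb w1 h
  · by_cases h0 : s w1 = 0
    · simpa [h0, hQ.zero] using hB
    · refine absurd (h2.isLocalMax ?_) (hQ.mp s w1 (fun i => (hs i).analyticAt w1) h0)
      have : ContinuousAt (fun w : ℂ => ‖w ^ m - μ‖) w1 := by fun_prop
      exact (this.eventually (gt_mem_nhds h)).mono fun w hw => hw.le

theorem NF.outside (hQ : NF Q) {m n : ℕ} (hm : 1 ≤ m) {μ : ℂ} {δ B κ C : ℝ} {s : ℂ → Fin 2 → ℂ}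
    (hs : ∀ i, Differentiable ℂ fun w => s w i) (hB : 0 ≤ B) (hδ : 0 < δ) (hκ : n + 1 ≤ κ * m)
    (hg : ∀ w, 1 ≤ ‖w‖ → Q w (s w) ≤ C * ‖w‖ ^ n)
    (hb : ∀ w, ‖w ^ m - μ‖ = δ → Q w (s w) ≤ B) {w : ℂ} (hw : δ ≤ ‖w ^ m - μ‖) :
    Q w (s w) ≤ B * Real.exp (κ * (Real.log ‖w ^ m - μ‖ - Real.log δ)) := by
  by_contra hlt
  rw [not_le] at hlt
  have hκ0 : 0 ≤ κ := by
    by_contra h
    have : κ * m ≤ 0 := mul_nonpos_of_nonpos_of_nonneg (not_le.mp h).le (by positivity)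
    have : (0 : ℝ) ≤ n := by positivity
    linarith
  set φ : ℂ → ℝ := fun w => Q w (s w) * Real.exp (-κ * Real.log ‖w ^ m - μ‖) with hφ
  have hφw : B * Real.exp (-κ * Real.log δ) < φ w := by
    have := mul_lt_mul_of_pos_right hlt (Real.exp_pos (-κ * Real.log ‖w ^ m - μ‖))
    rwa [mul_assoc, ← Real.exp_add, show κ * (Real.log ‖w ^ m - μ‖ - Real.log δ) +
      -κ * Real.log ‖w ^ m - μ‖ = -κ * Real.log δ by ring] at this
  have hpos : 0 < φ w := lt_of_le_of_lt (by positivity) hφw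
  have hc : ContinuousOn φ {w : ℂ | δ ≤ ‖w ^ m - μ‖} := by
    refine (hQ.cont s fun i => (hs i).continuous).continuousOn.mul
      (Real.continuous_exp.comp_continuousOn (continuousOn_const.mul
        (ContinuousOn.log (by fun_prop) fun w hw => (lt_of_lt_of_le hδ hw).ne')))
  have hinf : ∀ᶠ x in cocompact ℂ, φ x ≤ φ w := by
    have ht : Tendsto (fun x : ℂ => |C| * Real.exp (κ * Real.log 2) * ‖x‖⁻¹) (cocompact ℂ)
        (𝓝 0) := by
      simpa using (tendsto_inv_atTop_zero.comp (tendsto_norm_cocompact_atTop (E := ℂ))).const_mul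
        (|C| * Real.exp (κ * Real.log 2))
    filter_upwards [ht.eventually (gt_mem_nhds hpos),
      (tendsto_norm_cocompact_atTop (E := ℂ)).eventually (eventually_ge_atTop (max 1 (2 * ‖μ‖)))]
      with x h1 h2
    refine le_trans ?_ h1.le
    have x1 : 1 ≤ ‖x‖ := le_of_max_le_left h2
    have x2 : 2 * ‖μ‖ ≤ ‖x‖ := le_of_max_le_right h2
    have x0 : 0 < ‖x‖ := by linarith
    have x3 : ‖x‖ ^ m / 2 ≤ ‖x ^ m - μ‖ := by
      have a1 : ‖x‖ ≤ ‖x‖ ^ m := le_self_pow₀ x1 (by omega)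
      have a2 := norm_sub_norm_le (x ^ m) μ
      rw [norm_pow] at a2
      linarith
    have x4 : m * Real.log ‖x‖ - Real.log 2 ≤ Real.log ‖x ^ m - μ‖ := by
      rw [← Real.log_pow, ← Real.log_div (by positivity) two_ne_zero]
      exact Real.log_le_log (by positivity) x3
    have x5 : 0 ≤ Real.log ‖x‖ := Real.log_nonneg x1
    have x6 : ‖x‖ ^ n * Real.exp (-κ * Real.log ‖x ^ m - μ‖) ≤
        Real.exp (κ * Real.log 2) * ‖x‖⁻¹ := by
      rw [← Real.exp_log (pow_pos x0 n), ← Real.exp_log (inv_pos.mpr x0), ← Real.exp_add,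
        ← Real.exp_add, Real.log_pow, Real.log_inv]
      refine Real.exp_le_exp.mpr ?_
      nlinarith [mul_le_mul_of_nonneg_left x4 hκ0, mul_le_mul_of_nonneg_right hκ x5]
    calc φ x ≤ |C| * ‖x‖ ^ n * Real.exp (-κ * Real.log ‖x ^ m - μ‖) :=
          mul_le_mul_of_nonneg_right ((hg x x1).trans (mul_le_mul_of_nonneg_right (le_abs_self C)
            (by positivity))) (Real.exp_pos _).le
      _ ≤ _ := by
          rw [mul_assoc, mul_assoc]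
          exact mul_le_mul_of_nonneg_left x6 (abs_nonneg C)
  obtain ⟨w1, h1, h2⟩ := hc.exists_isMaxOn' (isClosed_le continuous_const (by fun_prop)) hw
    (hinf.filter_mono inf_le_left)
  have h3 : φ w ≤ φ w1 := h2 hw
  rcases (show δ ≤ ‖w1 ^ m - μ‖ from h1).eq_or_lt with h | h
  · have : φ w1 ≤ B * Real.exp (-κ * Real.log δ) := by
      simp only [hφ, ← h]
      exact mul_le_mul_of_nonneg_right (hb w1 h.symm) (Real.exp_pos _).le
    linarith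
  · have h0 : s w1 ≠ 0 := fun h0 => by
      simp only [hφ, h0, hQ.zero, zero_mul] at h3
      exact absurd hpos (not_lt.mpr h3)
    have hp1 : w1 ^ m - μ ≠ 0 := norm_pos_iff.mp (hδ.trans h)
    have hev : ∀ᶠ w in 𝓝 w1, δ < ‖w ^ m - μ‖ := by
      have : ContinuousAt (fun w : ℂ => ‖w ^ m - μ‖) w1 := by fun_prop
      exact this.eventually (lt_mem_nhds h)
    let g : ℂ → ℂ := fun w =>
      Complex.exp (-(κ / 2 : ℝ) * Complex.log ((w ^ m - μ) / (w1 ^ m - μ)))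
    have hga : AnalyticAt ℂ g w1 := by
      refine (analyticAt_const.mul (AnalyticAt.clog ?_ ?_)).cexp
      · simp only [div_eq_mul_inv]
        fun_prop
      · simp [div_self hp1]
    refine hQ.mp (fun w => g w • s w) w1 (fun i => hga.mul ((hs i).analyticAt w1))
      (smul_ne_zero (Complex.exp_ne_zero _) h0) ?_
    have hval : ∀ w, δ < ‖w ^ m - μ‖ →
        Q w (g w • s w) = φ w * Real.exp (κ * Real.log ‖w1 ^ m - μ‖) := by
      intro w hw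
      rw [hQ.smul]
      simp only [g, hφ, Complex.norm_exp, neg_mul, Complex.neg_re, Complex.re_ofReal_mul,
        Complex.log_re, norm_div]
      rw [Real.log_div (hδ.trans hw).ne' (hδ.trans h).ne', mul_assoc (Q w (s w)), ← Real.exp_add,
        ← Real.exp_nat_mul, mul_comm]
      congr 2
      push_cast
      ring
    filter_upwards [hev] with w hw
    rw [hval w hw, hval w1 h]
    exact mul_le_mul_of_nonneg_right (h2 hw.le) (Real.exp_pos _).le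

theorem NF.global (hQ : NF Q) {m n : ℕ} (hm : 1 ≤ m) {r A C : ℝ} {s : ℂ → Fin 2 → ℂ}
    (hs : ∀ i, Differentiable ℂ fun w => s w i) (hA : 0 ≤ A) (hr : 0 < r) (hn : n + 1 ≤ 14 * m)
    (hg : ∀ w, 1 ≤ ‖w‖ → Q w (s w) ≤ C * ‖w‖ ^ n)
    (hb : ∀ w, ‖w ^ m‖ = r → Q w (s w) ≤ A) {ρ : ℝ} (hρ : r ≤ ρ) {w : ℂ} (hw : ‖w ^ m‖ ≤ ρ) :
    Q w (s w) ≤ (ρ / r) ^ 14 * A := by
  have h1 : 1 ≤ (ρ / r) ^ 14 := one_le_pow₀ ((one_le_div hr).mpr hρ)
  by_cases h : ‖w ^ m‖ ≤ r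
  · have := hQ.inside hm (μ := 0) (r := r) hs hA (by simpa using hb) (w := w) (by simpa using h)
    nlinarith
  · have h' := (not_le.mp h).le
    have := hQ.outside hm (μ := 0) (δ := r) (κ := 14) hs hA hr (by exact_mod_cast hn) hg
      (by simpa using hb) (w := w) (by simpa using h')
    rw [sub_zero, ← Real.log_div (by linarith) hr.ne', show (14 : ℝ) = (14 : ℕ) by norm_num,
      Real.exp_nat_mul, Real.exp_log (div_pos (by linarith) hr), mul_comm] at this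
    refine this.trans (mul_le_mul_of_nonneg_right ?_ hA)
    gcongr

theorem NF.one_var (hQ : NF Q) {m : ℕ} (hm : 3 ≤ m) {e e' ν : ℂ → Fin 2 → ℂ} {θ : ℂ → ℂ}
    {μ0 : ℂ} {r A C C' Θ κ δ : ℝ} (he : ∀ i, Differentiable ℂ fun w => e w i)
    (he' : ∀ i, Differentiable ℂ fun w => e' w i) (hν : ∀ i, Differentiable ℂ fun w => ν w i)
    (hid : ∀ w, e w = θ (w ^ m) • e' w + (w ^ m - μ0) • ν w) (hr : 1 ≤ r) (hμ : ‖μ0‖ = r)
    (hg : ∀ w, 1 ≤ ‖w‖ → Q w (e w) ≤ C * ‖w‖ ^ 4)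
    (hg' : ∀ w, 1 ≤ ‖w‖ → Q w (e' w) ≤ C' * ‖w‖ ^ (12 * m + 4)) (hA : 0 ≤ A)
    (hb : ∀ w, ‖w ^ m‖ = r → Q w (e w) ≤ A) (hb' : ∀ w, ‖w ^ m‖ = r → Q w (e' w) ≤ A)
    (hΘ : ∀ μ, ‖μ - μ0‖ ≤ 1 → ‖θ μ‖ ≤ Θ) (hκ : ∀ μ, ‖μ - μ0‖ ≤ δ → ‖θ μ‖ ≤ κ)
    (hδ : 0 < δ) (hδ1 : δ ≤ 1) {w0 : ℂ} (hw0 : ‖w0 ^ m‖ = r) :
    Q w0 (e w0) ≤ (21 / 20 * κ ^ 2 * ((r + δ) / r) ^ 14 +
      21 * δ ^ 2 * ((2 + 2 * Θ ^ 2) * ((r + 1) / r) ^ 14)) * A *
      Real.exp (5 / m * (Real.log (2 * r) - Real.log δ)) := by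
  have hr0 : 0 < r := by linarith
  have hn : ∀ {w : ℂ} {d : ℝ}, ‖w ^ m - μ0‖ ≤ d → ‖w ^ m‖ ≤ r + d := fun {w d} h => by
    have := norm_add_le (w ^ m - μ0) μ0
    rw [sub_add_cancel] at this
    linarith
  have g1 : ∀ {w : ℂ} {d : ℝ}, 0 ≤ d → ‖w ^ m - μ0‖ ≤ d → Q w (e w) ≤ ((r + d) / r) ^ 14 * A :=
    fun hd h => hQ.global (by omega) he hA hr0 (by omega) hg hb (by linarith) (hn h)
  have g2 : ∀ {w : ℂ} {d : ℝ}, 0 ≤ d → ‖w ^ m - μ0‖ ≤ d → Q w (e' w) ≤ ((r + d) / r) ^ 14 * A :=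
    fun hd h => hQ.global (by omega) he' hA hr0 (by omega) hg' hb' (by linarith) (hn h)
  have g3 : ∀ {w : ℂ}, ‖w ^ m - μ0‖ ≤ 1 →
      Q w (ν w) ≤ (2 + 2 * Θ ^ 2) * ((r + 1) / r) ^ 14 * A := by
    intro w hw
    refine hQ.inside (by omega) hν (by positivity) (fun w hw => ?_) hw
    have a1 := hQ.smul w (w ^ m - μ0) (ν w)
    have a2 : (w ^ m - μ0) • ν w = e w + (-θ (w ^ m)) • e' w := by
      rw [hid w, neg_smul]; abel
    have a3 := hQ.add_le w (e w) ((-θ (w ^ m)) • e' w) 1 one_pos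
    rw [← a2, a1, hw, hQ.smul, norm_neg] at a3
    have a4 := g1 zero_le_one hw.le
    have a5 := g2 zero_le_one hw.le
    have a6 : ‖θ (w ^ m)‖ ^ 2 ≤ Θ ^ 2 := by
      have := hΘ _ hw.le
      gcongr
    have a7 := mul_le_mul a6 a5 (hQ.nonneg _ _) (by positivity)
    norm_num at a3
    nlinarith
  set B := (21 / 20 * κ ^ 2 * ((r + δ) / r) ^ 14 +
      21 * δ ^ 2 * ((2 + 2 * Θ ^ 2) * ((r + 1) / r) ^ 14)) * A with hB
  have hB0 : 0 ≤ B := by positivity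
  have g4 : ∀ {w : ℂ}, ‖w ^ m - μ0‖ ≤ δ → Q w (e w) ≤ B := by
    intro w hw
    have a3 := hQ.add_le w (θ (w ^ m) • e' w) ((w ^ m - μ0) • ν w) (1 / 20) (by norm_num)
    rw [← hid w, hQ.smul, hQ.smul] at a3
    have a6 : ‖θ (w ^ m)‖ ^ 2 ≤ κ ^ 2 := by
      have := hκ _ hw
      gcongr
    have a7 := mul_le_mul a6 (g2 hδ.le hw) (hQ.nonneg _ _) (by positivity)
    have a8 : ‖w ^ m - μ0‖ ^ 2 ≤ δ ^ 2 := by gcongr
    have a9 := mul_le_mul a8 (g3 (hw.trans hδ1)) (hQ.nonneg _ _) (by positivity)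
    norm_num at a3
    rw [hB]
    nlinarith
  have hlog : ∀ x, δ ≤ x → x ≤ 2 * r → 0 ≤ Real.log x - Real.log δ ∧
      Real.log x ≤ Real.log (2 * r) := fun x h1 h2 =>
    ⟨sub_nonneg.mpr (Real.log_le_log hδ h1), Real.log_le_log (by linarith) h2⟩
  have hm0 : (0 : ℝ) < m := by positivity
  by_cases h : ‖w0 ^ m - μ0‖ ≤ δ
  · refine (g4 h).trans (le_mul_of_one_le_right hB0 (Real.one_le_exp ?_))
    exact mul_nonneg (by positivity) (hlog _ (by linarith) le_rfl).1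
  · have h' := (not_le.mp h).le
    have := hQ.outside (by omega) (κ := 5 / m) he hB0 hδ (by field_simp; norm_num) hg
      (fun w hw => g4 hw.le) h'
    refine this.trans (mul_le_mul_of_nonneg_left (Real.exp_le_exp.mpr ?_) hB0)
    have h2 : ‖w0 ^ m - μ0‖ ≤ 2 * r := by
      have := norm_sub_le (w0 ^ m) μ0
      linarith
    have := (hlog _ h' h2).2
    gcongr

end Vale.Agent.P296
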