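import Vale.Agent.P296.Bundle
import Vale.Agent.P296.MP
import Vale.Agent.P296.OneVar
import Vale.Agent.P296.Cover

/-!
For large `m` the bundle `E m` has no Griffiths semipositive metric.
-/

namespace Vale.Agent.P296

open Matrix
open scoped ComplexOrder ContDiff

/-- The covector spanning the first line subbundle of the dual bundle. -/
noncomputable def ee1 (m : ℕ) (α : Fin 2 × Fin 2) (p : ℂ × ℂ) : V2 :=
  ![zet (hom α.1 (p.1 ^ m)) (hom α.2 (p.2 ^ m)), SS α.2 (hom α.1 (p.1 ^ m)) (hom α.2 (p.2 ^ m))]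

/-- The covector spanning the second line subbundle of the dual bundle. -/
noncomputable def ee2 : V2 := ![0, (nn : ℂ)]

theorem diff_ee1 (m : ℕ) (α : Fin 2 × Fin 2) (i : Fin 2) :
    Differentiable ℂ fun p => ee1 m α p i := by
  fin_cases i
  · exact diff_bi_pow _ _ m _ _ _
  · exact diff_bi_pow _ _ m _ _ _

theorem hom_inv {w : ℂ} (hw : w ≠ 0) : hom 0 w = w • hom 1 w⁻¹ := by
  funext i
  fin_cases i <;> simp [hw]

theorem ee1_w (m : ℕ) (z : ℂ) {w : ℂ} (hw : w ≠ 0) :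
    ee1 m (0, 0) (z, w) ᵥ* gm m (0, 0) (0, 1) (z, w) = w • ee1 m (0, 1) (z, w⁻¹) := by
  have hμ := pow_ne_zero m hw
  have h1 := zet_smul 1 (w ^ m) (hom 0 (z ^ m)) (hom 1 (w ^ m)⁻¹)
  have h2 := SS_smul 1 1 (w ^ m) (hom 0 (z ^ m)) (hom 1 (w ^ m)⁻¹)
  have h3 := the_sub (hom 0 (z ^ m)) (hom 0 (w ^ m)) (by simp) (by simpa using hμ)
  rw [one_smul, ← hom_inv hμ] at h1 h2
  simp only [the, hom_self, hom01, one_pow, div_one, h2] at h3
  funext i
  fin_cases i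
  · simp [ee1, gm, GG, vecMul, dotProduct, Fin.sum_univ_two, h1]
    field_simp
  · simp [ee1, gm, GG, vecMul, dotProduct, Fin.sum_univ_two]
    field_simp at h3
    field_simp
    linear_combination h3

theorem ee1_z (m : ℕ) {z : ℂ} (w : ℂ) (hz : z ≠ 0) :
    ee1 m (0, 0) (z, w) ᵥ* gm m (0, 0) (1, 0) (z, w) = z ^ (6 * m + 1) • ee1 m (1, 0) (z⁻¹, w) := by
  have hμ := pow_ne_zero m hz
  have h1 := zet_smul (z ^ m) 1 (hom 1 (z ^ m)⁻¹) (hom 0 (w ^ m))
  have h2 := SS_smul 0 (z ^ m) 1 (hom 1 (z ^ m)⁻¹) (hom 0 (w ^ m))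
  rw [one_smul, ← hom_inv hμ] at h1 h2
  funext i
  fin_cases i
  · simp [ee1, gm, GG, vecMul, dotProduct, Fin.sum_univ_two, h1]
    ring
  · simp [ee1, gm, GG, vecMul, dotProduct, Fin.sum_univ_two, h2]
    ring

theorem ee2_w (m : ℕ) (z w : ℂ) :
    ee2 ᵥ* gm m (0, 0) (0, 1) (z, w) = w ^ (6 * m + 1) • ee2 := by
  funext i
  fin_cases i
  · simp [ee2, gm, GG, vecMul, dotProduct, Fin.sum_univ_two]
  · simp [ee2, gm, GG, vecMul, dotProduct, Fin.sum_univ_two]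
    ring

theorem ee2_z (m : ℕ) (z w : ℂ) : ee2 ᵥ* gm m (0, 0) (1, 0) (z, w) = z • ee2 := by
  funext i
  fin_cases i
  · simp [ee2, gm, GG, vecMul, dotProduct, Fin.sum_univ_two]
  · simp [ee2, gm, GG, vecMul, dotProduct, Fin.sum_univ_two]
    ring

theorem chart_w (z : ℂ) {w : ℂ} (hw : w ≠ 0) : chart (0, 0) (z, w) = chart (0, 1) (z, w⁻¹) :=
  (chart_eq_iff.mpr ⟨1, w, one_ne_zero, hw, by simp, hom_inv hw⟩).symm

theorem chart_z {z : ℂ} (w : ℂ) (hz : z ≠ 0) : chart (0, 0) (z, w) = chart (1, 0) (z⁻¹, w) :=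
  (chart_eq_iff.mpr ⟨z, 1, hz, one_ne_zero, hom_inv hz, by simp⟩).symm

variable {m : ℕ} (H : Metric (EE m))

/-- The weighted dual norm in the first chart. -/
noncomputable def NN (p : ℂ × ℂ) (η : V2) : ℝ :=
  HH (H.h (0, 0) p) η * (1 + ‖p.1‖ ^ 2) * (1 + ‖p.2‖ ^ 2)

theorem growth (β : Fin 2 × Fin 2) {γ γ' : ℂ → ℂ × ℂ} (hγ' : Continuous γ') {η η' : ℂ → V2}
    (hη' : ∀ i, Continuous fun w => η' w i) (n : ℕ) (ρ : ℝ)
    (hch : ∀ w, w ≠ 0 → chart (0, 0) (γ w) = chart β (γ' w⁻¹))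
    (htr : ∀ w, w ≠ 0 → η w ᵥ* gm m (0, 0) β (γ w) = w ^ n • η' w⁻¹) :
    ∃ C, ∀ w, 1 ≤ ‖w‖ →
      HH (H.h (0, 0) (γ w)) (η w) * (1 + ‖w‖ ^ 2) * ρ ≤ C * ‖w‖ ^ (2 * n + 2) := by
  have hc : Continuous fun u => HH (H.h β (γ' u)) (η' u) := continuous_iff_continuousAt.mpr
    fun u => cont_HH (H.smooth β) (H.pos β) hγ'.continuousAt fun i => (hη' i).continuousAt
  obtain ⟨C, hC⟩ := (isCompact_closedBall (0 : ℂ) 1).exists_bound_of_continuousOn hc.continuousOn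
  refine ⟨C * 2 * |ρ|, fun w hw => ?_⟩
  have hw0 : w ≠ 0 := norm_pos_iff.mp (by linarith)
  have h1 := H.compat _ _ _ _ (hch w hw0)
  have h2 := (EE m).cocycle (0, 0) β (0, 0) _ _ (hch w hw0) ⟨_, rfl⟩
  rw [(EE m).refl] at h2
  have h3 := HH_trans (H.pos (0, 0) (γ w)) (h1 ▸ H.pos β (γ' w⁻¹)) h2 (η w)
  rw [← h1, show (EE m).g = gm m from rfl, htr w hw0, HH_smul] at h3
  have h4 := hC w⁻¹ (by rw [mem_closedBall_zero_iff, norm_inv]; exact inv_le_one_of_one_le₀ hw)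
  have h5 := HH_nonneg (H.pos β (γ' w⁻¹)) (η' w⁻¹)
  rw [Real.norm_of_nonneg h5] at h4
  have h6 : 1 + ‖w‖ ^ 2 ≤ 2 * ‖w‖ ^ 2 := by nlinarith
  rw [← h3, norm_pow]
  calc _ ≤ (‖w‖ ^ n) ^ 2 * C * (2 * ‖w‖ ^ 2) * |ρ| := by
        refine le_trans (mul_le_mul_of_nonneg_left (le_abs_self ρ) (by positivity)) ?_
        have : 0 ≤ C := h5.trans h4
        gcongr
    _ = _ := by ring

theorem nf_of (hH : H.GriffithsSemipos) (p0 ξ : ℂ × ℂ) {ρ : ℝ} (hρ : 0 < ρ)
    {Q : ℂ → V2 → ℝ}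
    (hQ : ∀ w η, Q w η = HH (H.h (0, 0) (p0 + w • ξ)) η * (1 + ‖w‖ ^ 2) * ρ) : NF Q where
  smul w c η := by rw [hQ, hQ, HH_smul]; ring
  nonneg w η := by
    have := HH_nonneg (H.pos (0, 0) (p0 + w • ξ)) η
    rw [hQ]; positivity
  add_le w a b t ht := by
    have := mul_le_mul_of_nonneg_right (HH_add_le (H.pos (0, 0) (p0 + w • ξ)) a b ht)
      (show 0 ≤ (1 + ‖w‖ ^ 2) * ρ by positivity)
    rw [hQ, hQ, hQ]
    linarith
  cont s hs := by
    simp only [hQ]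
    refine (Continuous.mul (continuous_iff_continuousAt.mpr fun u => ?_) (by fun_prop)).mul
      continuous_const
    exact cont_HH (H.smooth _) (H.pos _) (by fun_prop) fun i => (hs i).continuousAt
  mp s w0 hs h0 hmax := by
    refine max_principle (H.smooth (0, 0)) (H.pos _) ξ p0 (fun p v => hH (0, 0) p ξ v) hs h0 ?_
    refine Filter.Eventually.mono hmax fun w hw => ?_
    simp only [hQ] at hw
    exact le_of_mul_le_mul_right hw hρ

theorem factor_zz (l μ0 : ℂ) (h : zz l μ0 = 0) :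
    ∃ q : ℂ → ℂ, Differentiable ℂ q ∧ ∀ μ, zz l μ = (μ - μ0) * q μ := by
  have hd : Differentiable ℂ (zz l) := by
    unfold zz bi
    fun_prop
  refine ⟨dslope (zz l) μ0, ?_, fun μ => ?_⟩
  · rw [← differentiableOn_univ, Complex.differentiableOn_dslope Filter.univ_mem]
    exact hd.differentiableOn
  · rw [← smul_eq_mul, sub_smul_dslope, h, sub_zero]

theorem id_w (z w : ℂ) : ee1 m (0, 0) (z, w) =
    th (z ^ m) (w ^ m) • ee2 + zz (z ^ m) (w ^ m) • ![1, 0] := by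
  have := nn_ne
  funext i
  fin_cases i
  · simp [ee1, ee2, zet, zz]
  · simp [ee1, ee2, SS, th, this]

theorem id_z (z w : ℂ) : ee2 = th (w ^ m) (z ^ m) • ee1 m (0, 0) (z, w) +
    zz (w ^ m) (z ^ m) • ![-th (w ^ m) (z ^ m), bi 5 5 cB00 1 (z ^ m) 1 (w ^ m) / (nn : ℂ)] := by
  have := nn_ne
  have h1 := zeta_symm 1 (z ^ m) 1 (w ^ m)
  have h2 := idB00 1 (z ^ m) 1 (w ^ m)
  funext i
  fin_cases i
  · simp [ee1, ee2, zet, zz, h1]
    ring
  · simp [ee1, ee2, SS, th, zz, ← h1]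
    field_simp
    linear_combination -h2

theorem no_semipos : ∃ m : ℕ, 1 ≤ m ∧ ∀ H : Metric (EE m), ¬ H.GriffithsSemipos := by
  set r := Real.sqrt 6 with hr
  have hr2 : r ^ 2 = 6 := Real.sq_sqrt (by norm_num)
  have hr1 : 1 ≤ r := by rw [hr, Real.one_le_sqrt]; norm_num
  obtain ⟨m, Θ, δ, hm, hδ, hδ1, hΘ, hκ, hF⟩ := exists_params cont_th r hr1
  refine ⟨m, by omega, fun H hH => ?_⟩
  have hT : IsCompact {w : ℂ | ‖w ^ m‖ = r} :=
    (isCompact_lem (m := m) (by omega) 0 r).of_isClosed_subset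
      (isClosed_eq (by fun_prop) continuous_const) fun w hw => by simpa using hw.le
  obtain ⟨u, hu⟩ := IsAlgClosed.exists_pow_nat_eq (r : ℂ) (show 0 < m by omega)
  have hu' : ‖u ^ m‖ = r := by rw [hu, Complex.norm_real, Real.norm_of_nonneg (by linarith)]
  have hc : ∀ s : ℂ × ℂ → V2, (∀ i, Continuous fun p => s p i) →
      Continuous fun p => NN H p (s p) := fun s hs =>
    (Continuous.mul (continuous_iff_continuousAt.mpr fun u => cont_HH (H.smooth _) (H.pos _)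
      continuousAt_id fun i => (hs i).continuousAt) (by fun_prop)).mul (by fun_prop)
  obtain ⟨⟨z0, w0⟩, ⟨hz0, hw0⟩, hmax⟩ := (hT.prod hT).exists_isMaxOn ⟨(u, u), hu', hu'⟩
    ((hc _ fun i => (diff_ee1 m (0, 0) i).continuous).max
      (hc (fun _ => ee2) fun _ => continuous_const)).continuousOn
  set A := max (NN H (z0, w0) (ee1 m (0, 0) (z0, w0))) (NN H (z0, w0) ee2) with hA
  have hb : ∀ z w, ‖z ^ m‖ = r → ‖w ^ m‖ = r →
      NN H (z, w) (ee1 m (0, 0) (z, w)) ≤ A ∧ NN H (z, w) ee2 ≤ A := fun z w h1 h2 =>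
    max_le_iff.mp (hmax (a := (z, w)) ⟨h1, h2⟩)
  have hA0 : 0 < A := by
    refine lt_max_of_lt_right ?_
    have := HH_pos (H.pos (0, 0) (z0, w0)) (η := ee2) fun h => nn_ne (congrFun h 1)
    unfold NN
    positivity
  have hd1 : ∀ (f : ℂ → ℂ × ℂ) α i, Differentiable ℂ f →
      Differentiable ℂ fun w => ee1 m α (f w) i := fun f α i hf => (diff_ee1 m α i).comp hf
  have k1 : NN H (z0, w0) (ee1 m (0, 0) (z0, w0)) < A := by
    obtain ⟨μ0, a1, a2, a3⟩ := cover (l := z0 ^ m) (by rw [hz0, hr2])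
    obtain ⟨q, hq, hq'⟩ := factor_zz _ _ a2
    have hQ : NF fun w η => NN H (z0, w) η :=
      nf_of H hH (z0, 0) (0, 1) (ρ := 1 + ‖z0‖ ^ 2) (by positivity) fun w η => by
        simp only [NN, Prod.smul_mk, mul_zero, smul_eq_mul, mul_one, Prod.mk_add_mk, add_zero,
          zero_add]
        ring
    obtain ⟨C, hC⟩ := growth H (0, 1) (γ := fun w => (z0, w)) (γ' := fun w => (z0, w))
      (by fun_prop) (η := fun w => ee1 m (0, 0) (z0, w)) (η' := fun w => ee1 m (0, 1) (z0, w))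
      (fun i => (hd1 _ _ i (by fun_prop)).continuous) 1 (1 + ‖z0‖ ^ 2)
      (fun w hw => chart_w z0 hw) (fun w hw => by rw [pow_one]; exact ee1_w m z0 hw)
    obtain ⟨C', hC'⟩ := growth H (0, 1) (γ := fun w => (z0, w)) (γ' := fun w => (z0, w))
      (by fun_prop) (η := fun _ => ee2) (η' := fun _ => ee2)
      (fun i => continuous_const) (6 * m + 1) (1 + ‖z0‖ ^ 2)
      (fun w hw => chart_w z0 hw) (fun w _ => ee2_w m z0 w)
    have := hQ.one_var hm (e := fun w => ee1 m (0, 0) (z0, w)) (e' := fun _ => ee2)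
      (ν := fun w => q (w ^ m) • ![1, 0]) (θ := th (z0 ^ m)) (μ0 := μ0) (C := C) (C' := C')
      (fun i => hd1 _ _ i (by fun_prop)) (fun i => differentiable_const _)
      (fun i => (hq.comp (differentiable_pow m)).mul_const _)
      (fun w => by rw [id_w, hq', smul_smul]) hr1 (a1.trans hz0)
      (fun w hw => by rw [NN, mul_right_comm]; exact hC w hw)
      (fun w hw => by
        have := hC' w hw
        rw [show 2 * (6 * m + 1) + 2 = 12 * m + 4 by ring] at this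
        rw [NN, mul_right_comm]; exact this) hA0.le
      (fun w hw => (hb z0 w hz0 hw).1) (fun w hw => (hb z0 w hz0 hw).2)
      (fun μ h => hΘ _ _ μ hz0 (a1.trans hz0) h) (fun μ h => hκ _ _ μ hz0 (a1.trans hz0) a3 h)
      hδ hδ1 hw0
    nlinarith
  have k2 : NN H (z0, w0) ee2 < A := by
    obtain ⟨μ0, a1, a2, a3⟩ := cover (l := w0 ^ m) (by rw [hw0, hr2])
    obtain ⟨q, hq, hq'⟩ := factor_zz _ _ a2
    have hQ : NF fun z η => NN H (z, w0) η :=
      nf_of H hH (0, w0) (1, 0) (ρ := 1 + ‖w0‖ ^ 2) (by positivity) fun w η => by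
        simp only [NN, Prod.smul_mk, mul_zero, smul_eq_mul, mul_one, Prod.mk_add_mk, add_zero,
          zero_add]
    obtain ⟨C', hC'⟩ := growth H (1, 0) (γ := fun z => (z, w0)) (γ' := fun z => (z, w0))
      (by fun_prop) (η := fun z => ee1 m (0, 0) (z, w0)) (η' := fun z => ee1 m (1, 0) (z, w0))
      (fun i => (hd1 _ _ i (by fun_prop)).continuous) (6 * m + 1) (1 + ‖w0‖ ^ 2)
      (fun z hz => chart_z w0 hz) (fun z hz => ee1_z m w0 hz)
    obtain ⟨C, hC⟩ := growth H (1, 0) (γ := fun z => (z, w0)) (γ' := fun z => (z, w0))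
      (by fun_prop) (η := fun _ => ee2) (η' := fun _ => ee2)
      (fun i => continuous_const) 1 (1 + ‖w0‖ ^ 2)
      (fun z hz => chart_z w0 hz) (fun z _ => by rw [pow_one]; exact ee2_z m z w0)
    have hd2 : Differentiable ℂ fun z : ℂ => th (w0 ^ m) (z ^ m) := by
      unfold th bi
      fun_prop
    have hd3 : Differentiable ℂ fun z : ℂ => bi 5 5 cB00 1 (z ^ m) 1 (w0 ^ m) / (nn : ℂ) := by
      unfold bi
      fun_prop
    have := hQ.one_var hm (e := fun _ => ee2) (e' := fun z => ee1 m (0, 0) (z, w0))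
      (ν := fun z => q (z ^ m) •
        ![-th (w0 ^ m) (z ^ m), bi 5 5 cB00 1 (z ^ m) 1 (w0 ^ m) / (nn : ℂ)])
      (θ := th (w0 ^ m)) (μ0 := μ0) (C := C) (C' := C')
      (fun i => differentiable_const _) (fun i => hd1 _ _ i (by fun_prop))
      (fun i => (hq.comp (differentiable_pow m)).mul (by
        fin_cases i
        · exact hd2.neg
        · exact hd3))
      (fun z => by rw [id_z (m := m) z w0, hq', smul_smul]) hr1 (a1.trans hw0) hC
      (fun w hw => by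
        have := hC' w hw
        rwa [show 2 * (6 * m + 1) + 2 = 12 * m + 4 by ring] at this) hA0.le
      (fun z hz => (hb z w0 hz hw0).2) (fun z hz => (hb z w0 hz hw0).1)
      (fun μ h => hΘ _ _ μ hw0 (a1.trans hw0) h) (fun μ h => hκ _ _ μ hw0 (a1.trans hw0) a3 h)
      hδ hδ1 hz0
    nlinarith
  exact absurd (max_lt k1 k2) (lt_irrefl A)

end Vale.Agent.P296
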